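import Vale.Agent.P214.Defs

/-! P214: bump functions and the working form of stationarity. -/

open MeasureTheory Set Metric Filter Topology Module
open scoped RealInnerProductSpace

noncomputable section

namespace Vale.Agent.P214

variable {V : Type} [NormedAddCommGroup V] [InnerProductSpace ℝ V] [FiniteDimensional ℝ V]

/-- The square of the positive part. -/
def sq' (t : ℝ) : ℝ := max t 0 ^ 2

theorem sq'_nonneg (t : ℝ) : 0 ≤ sq' t := sq_nonneg _

theorem sq'_of_nonpos {t : ℝ} (h : t ≤ 0) : sq' t = 0 := by simp [sq', h]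

theorem sq'_of_nonneg {t : ℝ} (h : 0 ≤ t) : sq' t = t ^ 2 := by simp [sq', h]

theorem sq'_le_one {t : ℝ} (h : t ≤ 1) : sq' t ≤ 1 :=
  pow_le_one₀ (le_max_right _ _) (max_le h zero_le_one)

theorem le_sq' {a t : ℝ} (ha : 0 ≤ a) (h : a ≤ t) : a ^ 2 ≤ sq' t :=
  pow_le_pow_left₀ ha (h.trans (le_max_left _ _)) 2

@[fun_prop] theorem continuous_sq' : Continuous sq' := by unfold sq'; fun_prop

theorem hasDerivAt_sq' (t : ℝ) : HasDerivAt sq' (2 * max t 0) t := by
  rcases lt_trichotomy t 0 with h | rfl | h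
  · rw [max_eq_right h.le, mul_zero]
    exact (hasDerivAt_const t (0 : ℝ)).congr_of_eventuallyEq
      ((gt_mem_nhds h).mono fun s hs => sq'_of_nonpos hs.le)
  · rw [hasDerivAt_iff_isLittleO_nhds_zero]
    simp only [zero_add, max_self, mul_zero, smul_zero, sub_zero, sq'_of_nonpos le_rfl]
    refine Asymptotics.IsBigO.trans_isLittleO (g := fun s : ℝ => s ^ 2)
      (Asymptotics.IsBigO.of_bound 1 (Eventually.of_forall fun s => ?_))
      (Asymptotics.isLittleO_pow_id one_lt_two)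
    rw [one_mul, Real.norm_of_nonneg (sq'_nonneg s), Real.norm_of_nonneg (sq_nonneg s)]
    rcases le_total s 0 with h | h
    · rw [sq'_of_nonpos h]; positivity
    · rw [sq'_of_nonneg h]
  · rw [max_eq_left h.le]
    exact (by simpa using hasDerivAt_pow 2 t : HasDerivAt (fun s : ℝ => s ^ 2) (2 * t) t
      ).congr_of_eventuallyEq ((lt_mem_nhds h).mono fun s hs => sq'_of_nonneg hs.le)

/-- The bump function of a ball. -/
def bump (p : V) (r : ℝ) (x : V) : ℝ := sq' (1 - ‖x - p‖ ^ 2 / r ^ 2)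

/-- Its derivative. -/
def bump' (p : V) (r : ℝ) (x : V) : V →L[ℝ] ℝ :=
  (-4 * max (1 - ‖x - p‖ ^ 2 / r ^ 2) 0 / r ^ 2) • innerSL ℝ (x - p)

omit [FiniteDimensional ℝ V] in
theorem hasFDerivAt_bump (p : V) (r : ℝ) (x : V) : HasFDerivAt (bump p r) (bump' p r x) x := by
  have h1 := ((((hasFDerivAt_id x).sub_const p).norm_sq.mul_const (r ^ 2)⁻¹).const_sub 1)
  have h2 := (hasDerivAt_sq' _).comp_hasFDerivAt x h1
  refine (h2.congr_fderiv (ContinuousLinearMap.ext fun v => ?_)).congr_of_eventuallyEq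
    (Eventually.of_forall fun y => by simp [bump, div_eq_mul_inv])
  simp [bump', div_eq_mul_inv]
  ring

omit [InnerProductSpace ℝ V] [FiniteDimensional ℝ V] in
@[fun_prop] theorem continuous_bump (p : V) (r : ℝ) : Continuous (bump p r) := by
  unfold bump; fun_prop

omit [FiniteDimensional ℝ V] in
@[fun_prop] theorem continuous_bump' (p : V) (r : ℝ) : Continuous (bump' p r) := by
  unfold bump'; fun_prop

omit [InnerProductSpace ℝ V] [FiniteDimensional ℝ V] in
theorem out_nonpos {p x : V} {r : ℝ} (hr : 0 < r) (h : x ∉ ball p r) :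
    1 - ‖x - p‖ ^ 2 / r ^ 2 ≤ 0 := by
  rw [mem_ball_iff_norm, not_lt] at h
  rw [sub_nonpos, one_le_div (by positivity)]
  gcongr

omit [InnerProductSpace ℝ V] [FiniteDimensional ℝ V] in
theorem bump_zero {p x : V} {r : ℝ} (hr : 0 < r) (h : x ∉ ball p r) : bump p r x = 0 :=
  sq'_of_nonpos (out_nonpos hr h)

omit [FiniteDimensional ℝ V] in
theorem bump'_zero {p x : V} {r : ℝ} (hr : 0 < r) (h : x ∉ ball p r) : bump' p r x = 0 := by
  rw [bump', max_eq_right (out_nonpos hr h)]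
  simp

omit [InnerProductSpace ℝ V] [FiniteDimensional ℝ V] in
theorem bump_nonneg (p : V) (r : ℝ) (x : V) : 0 ≤ bump p r x := sq'_nonneg _

omit [InnerProductSpace ℝ V] [FiniteDimensional ℝ V] in
theorem bump_le_one (p : V) (r : ℝ) (x : V) : bump p r x ≤ 1 :=
  sq'_le_one (sub_le_self _ (by positivity))

omit [InnerProductSpace ℝ V] [FiniteDimensional ℝ V] in
theorem le_bump {p x : V} {ρ r : ℝ} (hρ : 0 ≤ ρ) (hr : ρ ≤ r) (h0 : 0 < r) (h : ‖x - p‖ ≤ ρ) :
    ((r - ρ) / r) ^ 2 ≤ bump p r x := by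
  refine le_sq' (div_nonneg (by linarith) h0.le) ?_
  have h1 : ‖x - p‖ ^ 2 / r ^ 2 ≤ ρ / r := by
    rw [div_le_div_iff₀ (by positivity) h0]
    have : ‖x - p‖ ^ 2 ≤ ρ * r := by nlinarith [norm_nonneg (x - p)]
    nlinarith
  rw [sub_div, div_self h0.ne']
  linarith

omit [FiniteDimensional ℝ V] in
theorem norm_bump'_le (p : V) {r : ℝ} (hr : 0 < r) (x : V) : ‖bump' p r x‖ ≤ 4 / r := by
  by_cases h : x ∈ ball p r
  · rw [bump', norm_smul, innerSL_apply_norm, Real.norm_eq_abs, abs_div, abs_mul,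
      abs_of_nonneg (a := max _ _) (le_max_right _ _), abs_of_nonneg (a := r ^ 2) (sq_nonneg r)]
    have h1 : max (1 - ‖x - p‖ ^ 2 / r ^ 2) 0 ≤ 1 :=
      max_le (sub_le_self _ (by positivity)) zero_le_one
    have h2 := (mem_ball_iff_norm.1 h).le
    calc _ ≤ |(-4 : ℝ)| * 1 / r ^ 2 * r := by gcongr
      _ = _ := by rw [abs_neg, abs_of_pos (by norm_num : (0 : ℝ) < 4)]; field_simp
  · rw [bump'_zero hr h, norm_zero]
    positivity

theorem inner_proj (S : Submodule ℝ V) (v : V) :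
    ⟪v, S.starProjection v⟫ = ‖S.starProjection v‖ ^ 2 := by
  have h := Submodule.starProjection_inner_eq_zero (K := S) v _ (S.starProjection_apply_mem v)
  rw [inner_sub_left, real_inner_self_eq_norm_sq] at h
  linarith

theorem norm_perp_sq (S : Submodule ℝ V) (v : V) :
    ‖v - S.starProjection v‖ ^ 2 = ‖v‖ ^ 2 - ‖S.starProjection v‖ ^ 2 := by
  rw [norm_sub_sq_real, inner_proj]
  ring

theorem trace_proj (S : Submodule ℝ V) :
    ∑ i, ⟪stdOrthonormalBasis ℝ V i, S.starProjection (stdOrthonormalBasis ℝ V i)⟫ =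
      finrank ℝ S := by
  have h : LinearMap.IsProj S (S.starProjection : V →ₗ[ℝ] V) :=
    ⟨fun x => S.starProjection_apply_mem x, fun x hx => Submodule.starProjection_eq_self_iff.2 hx⟩
  rw [← h.trace, LinearMap.trace_eq_sum_inner _ (stdOrthonormalBasis ℝ V)]
  rfl

variable [MeasurableSpace V] [BorelSpace V]

/-- The working form of a stationary varifold of finite mass. -/
structure Sys (m : ℕ) (U : Set V) (μ : Measure V) (T : V → Submodule ℝ V) : Prop where
  fin : IsFiniteMeasure μ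
  meas : AEStronglyMeasurable (fun x => (T x).starProjection) μ
  rank : ∀ᵐ x ∂μ, finrank ℝ (T x) = m
  stat : ∀ (φ : V → ℝ) (φ' : V → V →L[ℝ] ℝ) (p : V) (r : ℝ), (∀ x, HasFDerivAt φ (φ' x) x) →
    Continuous φ' → closedBall p r ⊆ U → (∀ x, x ∉ ball p r → φ x = 0) →
    ∀ w, ∫ x, φ' x ((T x).starProjection w) ∂μ = 0

variable {m : ℕ} {U : Set V} {μ : Measure V} {T : V → Submodule ℝ V}

theorem Sys.integrable (h : Sys m U μ T) {F : V × (V →L[ℝ] V) → ℝ} (hF : Continuous F) (p : V)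
    (r : ℝ) (h0 : ∀ x, x ∉ ball p r → ∀ A, F (x, A) = 0) :
    Integrable (fun x => F (x, (T x).starProjection)) μ := by
  have := h.fin
  obtain ⟨C, hC⟩ := ((isCompact_closedBall p r).prod
    (isCompact_closedBall (0 : V →L[ℝ] V) 1)).exists_bound_of_continuousOn hF.continuousOn
  refine Integrable.of_bound (hF.comp_aestronglyMeasurable (aestronglyMeasurable_id.prodMk h.meas))
    (max C 0) (Eventually.of_forall fun x => ?_)
  by_cases hx : x ∈ ball p r
  · exact (hC (x, (T x).starProjection) ⟨ball_subset_closedBall hx,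
      mem_closedBall_zero_iff.2 (T x).starProjection_norm_le⟩).trans (le_max_left _ _)
  · rw [h0 x hx, norm_zero]
    exact le_max_right _ _

/-- The radial variation. -/
theorem Sys.radial (h : Sys m U μ T) {φ : V → ℝ} {φ' : V → V →L[ℝ] ℝ} {p : V} {r : ℝ}
    (hφ : ∀ x, HasFDerivAt φ (φ' x) x) (hc : Continuous φ') (hU : closedBall p r ⊆ U)
    (h0 : ∀ x, x ∉ ball p r → φ x = 0) (h0' : ∀ x, x ∉ ball p r → φ' x = 0) :
    ∫ x, (m * φ x + φ' x ((T x).starProjection (x - p))) ∂μ = 0 := by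
  set b := stdOrthonormalBasis ℝ V
  have hφc : Continuous φ := continuous_iff_continuousAt.2 fun x => (hφ x).continuousAt
  have h1 : ∀ i, ∫ x, (φ x * ⟪b i, (T x).starProjection (b i)⟫ +
      ⟪b i, x - p⟫ * φ' x ((T x).starProjection (b i))) ∂μ = 0 := fun i =>
    h.stat (fun x => φ x * ⟪b i, x - p⟫) (fun x => φ x • innerSL ℝ (b i) + ⟪b i, x - p⟫ • φ' x) p r
      (fun x => (hφ x).mul ((innerSL ℝ (b i)).hasFDerivAt.comp x ((hasFDerivAt_id x).sub_const p)))
      (by fun_prop) hU (fun x hx => by simp [h0 x hx]) (b i)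
  have h2 := Finset.sum_eq_zero (s := Finset.univ) fun i _ => h1 i
  rw [← integral_finsetSum _ fun i _ => h.integrable
    (F := fun z => φ z.1 * ⟪b i, z.2 (b i)⟫ + ⟪b i, z.1 - p⟫ * φ' z.1 (z.2 (b i))) (by fun_prop) p r
    fun x hx A => by simp [h0 x hx, h0' x hx]] at h2
  rw [← h2]
  refine integral_congr_ae (h.rank.mono fun x hx => ?_)
  simp only [Finset.sum_add_distrib, ← Finset.mul_sum]
  rw [trace_proj, hx, mul_comm]
  congr 1
  conv_lhs => rw [← b.sum_repr' (x - p)]
  simp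

end Vale.Agent.P214
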