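import Vale.Agent.P214.Eps

/-! P214: the constancy theorem. -/

open MeasureTheory Set Metric Filter Topology Module
open scoped RealInnerProductSpace ENNReal ContDiff

noncomputable section

namespace Vale.Agent.P214

variable {V : Type} [NormedAddCommGroup V] [InnerProductSpace ℝ V] [FiniteDimensional ℝ V]
  [MeasurableSpace V] [BorelSpace V] {m : ℕ} {U : Set V} {μ : Measure V} {T : V → Submodule ℝ V}

theorem Sys.transl (h : Sys m U μ T) {S : Submodule ℝ V} {p v : V} {s : ℝ}
    (hU : closedBall p s ⊆ U) (hS : ∀ᵐ x ∂μ, x ∈ ball p s → T x = S) (hv : v ∈ S)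
    (hv' : ‖v‖ < s / 2) {φ : V → ℝ} (hφ : ContDiff ℝ ∞ φ) (hc : HasCompactSupport φ)
    (hs : tsupport φ ⊆ ball p (s / 2)) : ∫ x, φ (x - v) ∂μ = ∫ x, φ x ∂μ := by
  have := h.fin
  have hd : Differentiable ℝ φ := hφ.differentiable (by simp)
  have hc' : Continuous (fderiv ℝ φ) := hφ.continuous_fderiv (by simp)
  obtain ⟨C, hC⟩ := hc'.bounded_above_of_compact_support (hc.fderiv ℝ)
  obtain ⟨C', hC'⟩ := hφ.continuous.bounded_above_of_compact_support hc
  have h1 : ∀ t ∈ Icc (0 : ℝ) 1, HasDerivAt (fun t : ℝ => ∫ x, φ (x - t • v) ∂μ) 0 t :=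
    fun t ht => by
      have hout : ∀ x, x ∉ ball p s → x - t • v ∉ tsupport φ := fun x hx hx' => by
        have h1 := mem_ball_iff_norm.1 (hs hx')
        have h2 : ‖t • v‖ ≤ ‖v‖ := by
          rw [norm_smul, Real.norm_of_nonneg ht.1]
          exact mul_le_of_le_one_left (norm_nonneg _) ht.2
        refine hx (mem_ball_iff_norm.2 ?_)
        rw [show x - p = (x - t • v - p) + t • v by abel]
        linarith [norm_add_le (x - t • v - p) (t • v)]
      obtain ⟨-, h2⟩ := hasDerivAt_integral_of_dominated_loc_of_deriv_le (μ := μ) (x₀ := t)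
        (F := fun t x => φ (x - t • v)) (F' := fun t x => fderiv ℝ φ (x - t • v) (-v))
        (bound := fun _ => C * ‖-v‖) univ_mem
        (Eventually.of_forall fun s => Continuous.aestronglyMeasurable (by fun_prop))
        (Integrable.of_bound (Continuous.aestronglyMeasurable (by fun_prop)) C'
          (Eventually.of_forall fun x => hC' _))
        (Continuous.aestronglyMeasurable (by fun_prop))
        (Eventually.of_forall fun x s _ => ((fderiv ℝ φ _).le_opNorm _).trans
          (mul_le_mul_of_nonneg_right (hC _) (norm_nonneg _)))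
        (integrable_const _)
        (Eventually.of_forall fun x s _ => (hd _).hasFDerivAt.comp_hasDerivAt s
          (by simpa using ((hasDerivAt_id s).smul_const v).const_sub x))
      refine h2.congr_deriv ?_
      rw [← h.stat (fun x => φ (x - t • v)) (fun x => fderiv ℝ φ (x - t • v)) p s
        (fun x => (hd _).hasFDerivAt.comp x (f := fun x => x - t • v)
          ((hasFDerivAt_id x).sub_const (t • v)))
        (by fun_prop) hU (fun x hx => image_eq_zero_of_notMem_tsupport (hout x hx)) (-v)]
      refine integral_congr_ae (hS.mono fun x hx => ?_)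
      by_cases hx' : x ∈ ball p s
      · simp only [hx hx', Submodule.starProjection_eq_self_iff.2 (S.neg_mem hv)]
      · simp only [fderiv_of_notMem_tsupport ℝ (hout x hx'), zero_apply]
  have h2 := constant_of_has_deriv_right_zero
    (fun t ht => (h1 t ht).continuousAt.continuousWithinAt)
    (fun t ht => (h1 t (Ico_subset_Icc_self ht)).hasDerivWithinAt) 1 (right_mem_Icc.2 zero_le_one)
  simpa using h2

theorem const_of_shift {W : Type} [NormedAddCommGroup W] [NormedSpace ℝ W] [FiniteDimensional ℝ W]
    [MeasurableSpace W] [BorelSpace W] (ν : Measure W) [ν.IsAddHaarMeasure] {G : W → ℕ}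
    (hG : Measurable G) {s : ℝ} (hs : 0 < s)
    (h : ∀ v ∈ ball (0 : W) (2 * s), ∀ᵐ y ∂ν, y ∈ ball (0 : W) (2 * s) → G (y + v) = G y) :
    ∃ q, ∀ᵐ z ∂ν, z ∈ ball (0 : W) s → G z = q := by
  have h1 : ∀ᵐ v ∂ν, ∀ᵐ y ∂ν, v ∈ ball (0 : W) (2 * s) → y ∈ ball (0 : W) (2 * s) →
      G (y + v) = G y := Eventually.of_forall fun v => by
    by_cases hv : v ∈ ball (0 : W) (2 * s)
    · exact (h v hv).mono fun y hy _ => hy
    · simp [hv]
  rw [Measure.ae_ae_comm (by
    refine MeasurableSet.imp (measurable_fst measurableSet_ball)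
      (MeasurableSet.imp (measurable_snd measurableSet_ball) ?_)
    exact measurableSet_eq_fun (hG.comp (measurable_snd.add measurable_fst))
      (hG.comp measurable_snd))] at h1
  obtain ⟨y, hy, hy'⟩ := Measure.exists_mem_of_measure_ne_zero_of_ae
    (measure_ball_pos ν (0 : W) hs).ne' (ae_restrict_of_ae h1)
  refine ⟨G y, ((measurePreserving_add_left ν (-y)).quasiMeasurePreserving.ae hy').mono
    fun z hz hz' => ?_⟩
  rw [mem_ball_zero_iff] at hy hz'
  simpa using hz (by
    rw [mem_ball_zero_iff]
    linarith [norm_add_le (-y) z, norm_neg y]) (by rw [mem_ball_zero_iff]; linarith)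

theorem flat_of_density (h : Sys m U μ T) {S : Submodule ℝ V} (hm : finrank ℝ S = m) {p : V}
    (hp : p ∈ μ.support) {s : ℝ} (hs : 0 < s) (hU : closedBall p s ⊆ U)
    (hS : ∀ᵐ x ∂μ, x ∈ ball p s → T x = S) {g : V → ℕ} (hg : Measurable g)
    (hμ : μ.restrict (ball p s) =
      ((μH[m] : Measure V).restrict {x | x - p ∈ S}).withDensity fun x => g x) :
    FlatAt m μ p := by
  have := h.fin
  subst hm
  set A := {x | x - p ∈ S} with hA
  set lam := (μH[finrank ℝ S] : Measure V).restrict A with hlam
  have hAc : IsClosed A := S.closed_of_finiteDimensional.preimage (by fun_prop)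
  have hι : Isometry fun y : S => p + (y : V) := Isometry.of_dist_eq fun a b => by
    rw [dist_add_left]; rfl
  have hmap : (μH[finrank ℝ S] : Measure S).map (fun y : S => p + (y : V)) = lam := by
    rw [hι.map_hausdorffMeasure (Or.inl (Nat.cast_nonneg _)), hlam]
    congr 1
    ext x
    exact ⟨by rintro ⟨y, rfl⟩; simp [hA], fun hx => ⟨⟨x - p, hx⟩, by simp⟩⟩
  have hg' : Measurable fun x => (g x : ℝ≥0∞) := measurable_from_top.comp hg
  have hgi : Integrable (fun x => (g x : ℝ)) lam := by
    have h1 := integrable_toReal_of_lintegral_ne_top (μ := lam) hg'.aemeasurable (by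
      rw [← setLIntegral_univ, ← withDensity_apply _ MeasurableSet.univ, ← hμ]
      exact measure_ne_top _ _)
    simpa using h1
  have hint : ∀ φ : V → ℝ, (∀ x, x ∉ ball p s → φ x = 0) → ∫ x, φ x ∂μ = ∫ x, g x * φ x ∂lam :=
    fun φ h0 => by
      rw [← setIntegral_eq_integral_of_forall_compl_eq_zero h0, hμ,
        integral_withDensity_eq_integral_toReal_smul hg' (by simp)]
      simp
  have h1 : ∀ v ∈ S, ‖v‖ < s / 2 → ∀ᵐ x ∂lam, x ∈ ball p (s / 2) → g (x + v) = g x :=
    fun v hv hv' => by
      have hpres : MeasurePreserving (· + v) lam lam := by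
        have h2 := (measurePreserving_add_right (μH[finrank ℝ S] : Measure V) v).restrict_preimage
          hAc.measurableSet
        rwa [show (· + v) ⁻¹' A = A by
          ext x
          simp only [hA, mem_preimage, mem_setOf_eq, add_sub_right_comm]
          exact S.add_mem_iff_left hv] at h2
      have hgv : Integrable (fun x => (g (x + v) : ℝ)) lam :=
        (hpres.integrable_comp hgi.aestronglyMeasurable).2 hgi
      have h2 := isOpen_ball.ae_eq_zero_of_integral_contDiff_smul_eq_zero (U := ball p (s / 2))
        ((hgv.sub hgi).locallyIntegrable.locallyIntegrableOn _) fun φ hφ hc hsupp => by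
          have h3 := h.transl hU hS hv hv' hφ hc hsupp
          rw [hint _ fun x hx => image_eq_zero_of_notMem_tsupport fun hx' => hx (by
              have h1 := mem_ball_iff_norm.1 (hsupp hx')
              rw [mem_ball_iff_norm, show x - p = (x - v - p) + v by abel]
              linarith [norm_add_le (x - v - p) v]),
            hint _ fun x hx => image_eq_zero_of_notMem_tsupport fun hx' =>
              hx (ball_subset_ball (half_le_self hs.le) (hsupp hx')),
            ← hpres.integral_comp (measurableEmbedding_addRight v)] at h3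
          obtain ⟨C, hC⟩ := hφ.continuous.bounded_above_of_compact_support hc
          simp only [Pi.sub_apply, smul_eq_mul, mul_comm (φ _), sub_mul]
          rw [integral_sub (hgv.mul_bdd hφ.continuous.aestronglyMeasurable (.of_forall hC))
            (hgi.mul_bdd hφ.continuous.aestronglyMeasurable (.of_forall hC)), ← h3]
          simp
      exact h2.mono fun x hx hx' => by simpa [sub_eq_zero] using hx hx'
  obtain ⟨q, hq⟩ := const_of_shift (μH[finrank ℝ S] : Measure S) (G := fun y => g (p + y))
    (hg.comp hι.continuous.measurable) (s := s / 4) (by positivity) fun v hv => by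
      have h2 := h1 v v.2 (by rw [mem_ball_zero_iff, Submodule.coe_norm] at hv; linarith)
      rw [← hmap, hι.isClosedEmbedding.measurableEmbedding.ae_map_iff] at h2
      refine h2.mono fun y hy hy' => ?_
      rw [mem_ball_zero_iff, Submodule.coe_norm] at hy'
      simpa [add_assoc] using hy (by simp; linarith)
  have hq' : ∀ᵐ x ∂lam, x ∈ ball p (s / 4) → g x = q := by
    rw [← hmap, hι.isClosedEmbedding.measurableEmbedding.ae_map_iff]
    exact hq.mono fun y hy hy' => hy (by simpa using hy')
  have h3 : μ.restrict (ball p (s / 4)) = q • lam.restrict (ball p (s / 4)) := by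
    rw [← Measure.restrict_restrict_of_subset (ball_subset_ball (by linarith : s / 4 ≤ s)), hμ,
      restrict_withDensity measurableSet_ball, withDensity_congr_ae (g := fun _ => (q : ℝ≥0∞))
        ((ae_restrict_iff' measurableSet_ball).2 (hq'.mono fun x hx hx' => by rw [hx hx'])),
      withDensity_const, Nat.cast_smul_eq_nsmul]
  have hq0 : q ≠ 0 := fun h0 => by
    have h4 := (Measure.mem_support_iff_forall p).1 hp _ (ball_mem_nhds p (by positivity : 0 < s / 4))
    rw [← Measure.restrict_apply_self, h3, h0] at h4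
    simp at h4
  refine ⟨s / 4, by positivity, S, rfl, q, Nat.one_le_iff_ne_zero.2 hq0, ?_,
    by rw [h3, hlam, Measure.restrict_restrict measurableSet_ball, inter_comm]⟩
  ext x
  refine and_congr_left fun hx => ⟨fun hx' => ?_, fun hx' => ?_⟩
  · by_contra hxA
    have h4 := (Measure.mem_support_iff_forall x).1 hx' (Aᶜ ∩ ball p (s / 4))
      ((hAc.isOpen_compl.inter isOpen_ball).mem_nhds ⟨hxA, hx⟩)
    rw [← Measure.restrict_apply hAc.measurableSet.compl, h3, Measure.smul_apply,
      Measure.restrict_apply hAc.measurableSet.compl, hlam,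
      Measure.restrict_apply (hAc.measurableSet.compl.inter measurableSet_ball),
      show Aᶜ ∩ ball p (s / 4) ∩ A = ∅ by ext y; simp +contextual] at h4
    simp at h4
  · refine (Measure.mem_support_iff_forall x).2 fun W hW => ?_
    obtain ⟨O, hO, hO', hxO⟩ := _root_.mem_nhds_iff.1 hW
    refine lt_of_lt_of_le ?_ (measure_mono (inter_subset_left.trans hO :
      O ∩ ball p (s / 4) ⊆ W))
    rw [← Measure.restrict_apply hO'.measurableSet, h3, Measure.smul_apply,
      Measure.restrict_apply hO'.measurableSet, ← hmap,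
      Measure.map_apply hι.continuous.measurable (hO'.inter isOpen_ball).measurableSet]
    rw [nsmul_eq_mul]
    refine ENNReal.mul_pos (by simpa using hq0) (IsOpen.measure_pos _
      ((hO'.inter isOpen_ball).preimage hι.continuous) ⟨⟨x - p, hx'⟩, ?_⟩).ne'
    simpa using ⟨hxO, hx⟩

theorem le_weight {E : Set V} {θ : V → ℕ} (h1 : ∀ᵐ x ∂(μH[m] : Measure V).restrict E, 1 ≤ θ x) :
    (μH[m] : Measure V).restrict E ≤ weight m E θ := by
  conv_lhs => rw [← withDensity_one (μ := (μH[m] : Measure V).restrict E)]
  exact withDensity_mono (h1.mono fun x hx => by simpa using hx)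

theorem flat_of_weight {E : Set V} {θ : V → ℕ} (h : Sys m U (weight m E θ) T)
    (hθ : AEMeasurable θ ((μH[m] : Measure V).restrict E))
    (h1 : ∀ᵐ x ∂(μH[m] : Measure V).restrict E, 1 ≤ θ x) {S : Submodule ℝ V}
    (hm : finrank ℝ S = m) {p : V} (hp : p ∈ (weight m E θ).support) {s : ℝ} (hs : 0 < s)
    (hU : closedBall p s ⊆ U) (hS : ∀ᵐ x ∂weight m E θ, x ∈ ball p s → T x = S ∧ x - p ∈ S) :
    FlatAt m (weight m E θ) p := by
  have := h.fin
  have hE : (μH[m] : Measure V) E ≠ ⊤ := by
    rw [← Measure.restrict_apply_univ]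
    exact ne_top_of_le_ne_top (measure_ne_top _ _) (le_weight h1 univ)
  have hA : MeasurableSet {x | x - p ∈ S} :=
    (S.closed_of_finiteDimensional.preimage (by fun_prop : Continuous fun x => x - p)).measurableSet
  have hB := measurableSet_ball.inter (measurableSet_toMeasurable (μH[m] : Measure V) E)
    (s₁ := ball p s)
  obtain ⟨g, hg, hθg⟩ := hθ
  refine flat_of_density h hm hp hs hU (hS.mono fun x hx hx' => (hx hx').1)
    (hg.indicator hB) ?_
  rw [Measure.restrict_congr_set (s := ball p s) (t := ball p s ∩ {x | x - p ∈ S}) (hS.mono fun x hx =>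
      propext ⟨fun hx' => ⟨hx', (hx hx').2⟩, fun hx' => hx'.1⟩), weight,
    withDensity_congr_ae (g := fun x => (g x : ℝ≥0∞))
      (hθg.mono fun x hx => congrArg Nat.cast hx), ← Measure.restrict_toMeasurable hE,
    restrict_withDensity (measurableSet_ball.inter hA),
    Measure.restrict_restrict (measurableSet_ball.inter hA), inter_right_comm,
    ← Measure.restrict_restrict hB, ← withDensity_indicator hB]
  congr 1
  ext x
  by_cases hx : x ∈ ball p s ∩ toMeasurable (μH[m] : Measure V) E <;> simp [hx]

end Vale.Agent.P214
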