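import Mathlib

/-! P214: statement level definitions. -/

open MeasureTheory Set Metric

noncomputable section

namespace Vale.Agent.P214

variable {V : Type} [NormedAddCommGroup V] [InnerProductSpace ℝ V] [FiniteDimensional ℝ V]
  [MeasurableSpace V] [BorelSpace V]

/-- The weight measure `θ H^m` restricted to `E`. -/
def weight (m : ℕ) (E : Set V) (θ : V → ℕ) : Measure V :=
  ((μH[m] : Measure V).restrict E).withDensity fun x => θ x

/-- The first variation vanishes on vector fields supported in `U`. -/
def Stationary (U : Set V) (μ : Measure V) (T : V → Submodule ℝ V) : Prop :=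
  ∀ X : V → V, ContDiff ℝ 1 X → HasCompactSupport X → tsupport X ⊆ U →
    ∫ x, LinearMap.trace ℝ V ((T x).starProjection ∘L fderiv ℝ X x : V →L[ℝ] V) ∂μ = 0

/-- Near `p` the measure is an integer multiple of an affine `m`-plane through `p`. -/
def FlatAt (m : ℕ) (μ : Measure V) (p : V) : Prop :=
  ∃ r > 0, ∃ L : Submodule ℝ V, Module.finrank ℝ L = m ∧ ∃ q : ℕ, 1 ≤ q ∧
    μ.support ∩ ball p r = {x | x - p ∈ L} ∩ ball p r ∧
    μ.restrict (ball p r) = q • (μH[m] : Measure V).restrict ({x | x - p ∈ L} ∩ ball p r)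

/-- The points of the support in `U` that are not flat. -/
def NonFlat (m : ℕ) (U : Set V) (μ : Measure V) : Set V :=
  {p | p ∈ U ∧ p ∈ μ.support ∧ ¬FlatAt m μ p}

/-- Near `x` the planes `T y` are equal to `T x` or at a fixed distance from it. -/
def Isolated (μ : Measure V) (T : V → Submodule ℝ V) (x : V) : Prop :=
  ∃ γ > 0, ∀ᵐ y ∂μ, y ∈ ball x γ → T y ≠ T x →
    γ ≤ ‖(T y).starProjection - (T x).starProjection‖

/-- The data of a stationary integral varifold. -/
structure IsStatVar (m : ℕ) (U E : Set V) (θ : V → ℕ) (T : V → Submodule ℝ V) : Prop where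
  sub : E ⊆ U
  measE : NullMeasurableSet E (μH[m] : Measure V)
  measθ : AEMeasurable θ ((μH[m] : Measure V).restrict E)
  pos : ∀ x ∈ E, 1 ≤ θ x
  fin : ∀ K, IsCompact K → K ⊆ U → weight m E θ K < ⊤
  rank : ∀ᵐ x ∂weight m E θ, Module.finrank ℝ (T x) = m
  measT : AEStronglyMeasurable (fun x => (T x).starProjection) (weight m E θ)
  stat : Stationary U (weight m E θ) T

end Vale.Agent.P214
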