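import Vale.Agent.P214.Eps

/-! P214: the dimension estimate. -/

open MeasureTheory Set Metric Filter Topology Module
open scoped RealInnerProductSpace ENNReal NNReal

noncomputable section

namespace Vale.Agent.P214

theorem packing {W : Type} [NormedAddCommGroup W] [NormedSpace ℝ W] [FiniteDimensional ℝ W]
    {ι : Type} (F : Finset ι) (y : ι → W) {a r : ℝ} (ha : 0 < a) (hr : 0 ≤ r)
    (hy : ∀ i ∈ F, ‖y i‖ ≤ r) (hF : (F : Set ι).Pairwise fun i j => 2 * a < ‖y i - y j‖) :
    F.card * a ^ finrank ℝ W ≤ (r + a) ^ finrank ℝ W := by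
  borelize W
  set ν : Measure W := Measure.addHaar
  have h0 : 0 < ν.real (ball 0 1) :=
    ENNReal.toReal_pos (measure_ball_pos ν _ one_pos).ne' measure_ball_lt_top.ne
  refine le_of_mul_le_mul_right ?_ h0
  rw [← Measure.addHaar_real_closedBall ν 0 (by linarith : 0 ≤ r + a)]
  calc _ = ∑ i ∈ F, ν.real (closedBall (y i) a) := by
        simp [Measure.addHaar_real_closedBall ν _ ha.le, mul_assoc]
    _ = ν.real (⋃ i ∈ F, closedBall (y i) a) :=
        (measureReal_biUnion_finset (fun i hi j hj hij => closedBall_disjoint_closedBall (by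
          rw [dist_eq_norm]; linarith [hF hi hj hij])) (fun i _ => measurableSet_closedBall)
          fun i _ => measure_closedBall_lt_top.ne).symm
    _ ≤ _ := measureReal_mono (iUnion₂_subset fun i hi => closedBall_subset_closedBall' (by
          rw [dist_zero_right]; linarith [hy i hi])) measure_closedBall_lt_top.ne

theorem null_of_cover {X : Type} [MetricSpace X] [MeasurableSpace X] [BorelSpace X]
    [SecondCountableTopology X] {A : Set X} {r η M s : ℝ} (hr : 0 < r) (hη : 0 < η) (hη1 : η < 1)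
    (hM : 0 ≤ M) (hs : 0 < s) (hMs : M * η ^ s < 1)
    (h : ∀ k : ℕ, ∀ p ∈ A, ∃ F : Finset X, ↑F ⊆ A ∧ (F.card : ℝ) ≤ M ∧
      ∀ x ∈ A ∩ ball p (r * η ^ k), ∃ y ∈ F, x ∈ ball y (r * η ^ (k + 1))) :
    (μH[s] : Measure X) A = 0 := by
  classical
  refine measure_null_of_locally_null A fun p hp =>
    ⟨A ∩ ball p r, inter_mem_nhdsWithin _ (ball_mem_nhds p hr), ?_⟩
  choose! G hG hG' hG'' using h
  have h1 : ∀ k : ℕ, ∃ F : Finset X, ↑F ⊆ A ∧ (F.card : ℝ) ≤ M ^ k ∧
      ∀ x ∈ A ∩ ball p r, ∃ y ∈ F, x ∈ ball y (r * η ^ k) := fun k => by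
    induction k with
    | zero => exact ⟨{p}, by simpa using hp, by simp, fun x hx => ⟨p, by simp, by simpa using hx.2⟩⟩
    | succ k ih =>
      obtain ⟨F, hF, hc, hF'⟩ := ih
      refine ⟨F.biUnion (G k), fun x hx => ?_, ?_, fun x hx => ?_⟩
      · obtain ⟨y, hy, hx⟩ := Finset.mem_biUnion.1 hx
        exact hG k y (hF hy) hx
      · calc ((F.biUnion (G k)).card : ℝ) ≤ ∑ y ∈ F, ((G k y).card : ℝ) := by
              exact_mod_cast Finset.card_biUnion_le
          _ ≤ F.card * M := by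
              simpa using Finset.sum_le_card_nsmul F _ M fun y hy => hG' k y (hF hy)
          _ ≤ _ := by rw [pow_succ]; gcongr
      · obtain ⟨y, hy, hxy⟩ := hF' x hx
        obtain ⟨z, hz, hxz⟩ := hG'' k y (hF hy) x ⟨hx.1, hxy⟩
        exact ⟨z, Finset.mem_biUnion.2 ⟨y, hy, hz⟩, hxz⟩
  choose F hF hc hF' using h1
  have hd : ∀ (k : ℕ) (y : X), ediam (ball y (r * η ^ k)) ≤ ENNReal.ofReal (2 * r * η ^ k) :=
    fun k y => ediam_le_of_forall_dist_le fun a ha b hb => by
      linarith [dist_triangle_right a b y, mem_ball.1 ha, mem_ball.1 hb]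
  have h2 := Measure.hausdorffMeasure_le_liminf_sum s (A ∩ ball p r) (l := atTop)
    (fun k : ℕ => ENNReal.ofReal (2 * r * η ^ k)) (by
      simpa using ENNReal.tendsto_ofReal
        ((tendsto_pow_atTop_nhds_zero_of_lt_one hη.le hη1).const_mul (2 * r)))
    (fun k (y : F k) => ball y.1 (r * η ^ k)) (Eventually.of_forall fun k y => hd k y)
    (Eventually.of_forall fun k x hx => by
      obtain ⟨y, hy, hxy⟩ := hF' k x hx
      exact mem_iUnion.2 ⟨⟨y, hy⟩, hxy⟩)
  have h3 : Tendsto (fun k : ℕ => ENNReal.ofReal ((2 * r) ^ s * (M * η ^ s) ^ k)) atTop (𝓝 0) := by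
    simpa using ENNReal.tendsto_ofReal
      ((tendsto_pow_atTop_nhds_zero_of_lt_one (by positivity) hMs).const_mul ((2 * r) ^ s))
  refine le_antisymm (h2.trans ((liminf_le_liminf (Eventually.of_forall fun k => ?_)).trans_eq
    h3.liminf_eq)) zero_le
  refine (Finset.sum_le_card_nsmul _ _ (ENNReal.ofReal ((2 * r * η ^ k) ^ s)) fun y _ => ?_).trans ?_
  · rw [← ENNReal.ofReal_rpow_of_nonneg (by positivity) hs.le]
    exact ENNReal.rpow_le_rpow (hd k y) hs.le
  · rw [nsmul_eq_mul, ← ENNReal.ofReal_natCast, ← ENNReal.ofReal_mul (Nat.cast_nonneg _)]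
    refine ENNReal.ofReal_le_ofReal ?_
    rw [Finset.card_univ, Fintype.card_coe, Real.mul_rpow (by positivity) (by positivity),
      ← Real.rpow_pow_comm hη.le, mul_pow, mul_left_comm]
    gcongr
    exact hc k

variable {V : Type} [NormedAddCommGroup V] [InnerProductSpace ℝ V] [FiniteDimensional ℝ V]

theorem dist_inf (A B : Submodule ℝ V) : ∃ C : ℝ, 0 < C ∧ ∀ v, ‖v - (A ⊓ B).starProjection v‖ ≤
    C * max ‖v - A.starProjection v‖ ‖v - B.starProjection v‖ := by
  let Φ : V →ₗ[ℝ] V × V := (LinearMap.id - (A.starProjection : V →ₗ[ℝ] V)).prod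
    (LinearMap.id - (B.starProjection : V →ₗ[ℝ] V))
  obtain ⟨K, hK, h⟩ := (Φ.domRestrict (A ⊓ B)ᗮ).exists_antilipschitzWith (by
    rw [LinearMap.ker_eq_bot']
    rintro ⟨u, hu⟩ h0
    obtain ⟨h1, h2⟩ : u - A.starProjection u = 0 ∧ u - B.starProjection u = 0 :=
      Prod.mk_eq_zero.1 h0
    rw [sub_eq_zero, eq_comm, Submodule.starProjection_eq_self_iff] at h1 h2
    exact Subtype.ext (inner_self_eq_zero.1 (hu u ⟨h1, h2⟩)))
  refine ⟨K, hK, fun v => ?_⟩
  have h1 := ZeroHomClass.bound_of_antilipschitz _ h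
    ⟨_, (A ⊓ B).sub_starProjection_mem_orthogonal v⟩
  have h2 := (A ⊓ B).starProjection_apply_mem v
  refine h1.trans_eq ?_
  simp [Φ, Prod.norm_def, Submodule.starProjection_eq_self_iff.2 h2.1,
    Submodule.starProjection_eq_self_iff.2 h2.2]

theorem finrank_inf {A B : Submodule ℝ V} {m : ℕ} (hA : finrank ℝ A = m) (hB : finrank ℝ B = m)
    (h : A ≠ B) : finrank ℝ ↥(A ⊓ B) ≤ m - 1 := by
  have h1 := Submodule.finrank_lt_finrank_of_lt (lt_of_le_of_ne (inf_le_left (a := A) (b := B))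
    fun h' => h (Submodule.eq_of_le_of_finrank_eq (inf_eq_left.1 h') (hA.trans hB.symm)))
  omega

variable [MeasurableSpace V] [BorelSpace V] {m : ℕ} {U : Set V} {μ : Measure V}
  {T : V → Submodule ℝ V}

theorem Sys.two (h : Sys m U μ T) {K : Finset (Submodule ℝ V)} (hK : ∀ᵐ x ∂μ, T x ∈ K)
    (hne : K.Nonempty) {B : Set V} {a : ℝ} (ha : 0 ≤ a)
    (hB : ∀ S ∈ K, a < μ.real (B \ {x | T x = S})) : ∃ S ∈ K, ∃ S' ∈ K, S ≠ S' ∧
      a / K.card ≤ μ.real (B ∩ {x | T x = S}) ∧ a / K.card ≤ μ.real (B ∩ {x | T x = S'}) := by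
  classical
  have := h.fin
  obtain ⟨S, hS, hmax⟩ := K.exists_max_image (fun S => μ.real (B ∩ {x | T x = S})) hne
  have h1 : μ.real (B \ {x | T x = S}) ≤ ∑ S' ∈ K.erase S, μ.real (B ∩ {x | T x = S'}) := by
    refine le_trans ?_ (measureReal_biUnion_finset_le _ _)
    refine ENNReal.toReal_mono (measure_ne_top _ _) (measure_mono_ae (hK.mono fun x hx hx' => ?_))
    exact mem_iUnion₂.2 ⟨T x, Finset.mem_erase.2 ⟨hx'.2, hx⟩, hx'.1, rfl⟩
  have h2 : ∃ S' ∈ K.erase S, a / K.card ≤ μ.real (B ∩ {x | T x = S'}) := by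
    by_contra hc
    push Not at hc
    have h3 := Finset.sum_le_card_nsmul _ _ _ fun S' hS' => (hc S' hS').le
    have h4 : ((K.erase S).card : ℝ) ≤ K.card := Nat.cast_le.2 Finset.card_erase_le
    have h5 : (0 : ℝ) < K.card := Nat.cast_pos.2 hne.card_pos
    have h6 : ((K.erase S).card : ℝ) * (a / K.card) ≤ a := by
      calc _ ≤ K.card * (a / K.card) := by gcongr
        _ = a := by field_simp
    rw [nsmul_eq_mul] at h3
    linarith [hB S hS]
  obtain ⟨S', hS', h3⟩ := h2
  exact ⟨S, hS, S', Finset.mem_of_mem_erase hS', (Finset.ne_of_mem_erase hS').symm,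
    h3.trans (hmax S' (Finset.mem_of_mem_erase hS')), h3⟩

theorem Sys.perp (h : Sys m U μ T) {p q : V} {r δ : ℝ} (hr : 0 < r) (hq : q ∈ ball p r)
    (hU : closedBall p (4 * r) ⊆ U) (hU' : closedBall q (4 * r) ⊆ U)
    (hp : Th m μ (fun _ => 1) p (4 * r) - Th m μ (fun _ => 1) p (3 * r) ≤ δ)
    (hq' : Th m μ (fun _ => 1) q (4 * r) - Th m μ (fun _ => 1) q (3 * r) ≤ δ) (S : Submodule ℝ V) :
    μ.real (ball p r ∩ {x | T x = S}) * ‖q - p - S.starProjection (q - p)‖ ^ 2 ≤
      4 ^ (m + 4) * r ^ (m + 2) * δ := by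
  have := h.fin
  have key : ∀ z : V, ball p r ⊆ ball z (2 * r) → closedBall z (4 * r) ⊆ U →
      Th m μ (fun _ => 1) z (4 * r) - Th m μ (fun _ => 1) z (3 * r) ≤ δ →
      IntegrableOn (fun x => ‖x - z - (T x).starProjection (x - z)‖ ^ 2)
        (ball p r ∩ {x | T x = S}) μ ∧
      ∫ x in ball p r ∩ {x | T x = S}, ‖x - z - (T x).starProjection (x - z)‖ ^ 2 ∂μ ≤
        4 ^ (m + 3) * r ^ (m + 2) * δ := fun z hz hU hδ => by
    have hi := h.integrableOn (F := fun w => ‖w.1 - z - w.2 (w.1 - z)‖ ^ 2) (by fun_prop) z (2 * r)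
    exact ⟨hi.mono_set (inter_subset_left.trans hz), (setIntegral_mono_set hi
      (Eventually.of_forall fun x => sq_nonneg _) (inter_subset_left.trans hz).eventuallyLE).trans
      ((h.pinch hr hU).trans (by gcongr))⟩
  obtain ⟨i1, h1⟩ := key p (ball_subset_ball (by linarith)) hU hp
  obtain ⟨i2, h2⟩ := key q (ball_subset_ball' (by linarith [mem_ball'.1 hq])) hU' hq'
  rw [← smul_eq_mul, ← setIntegral_const]
  refine (integral_mono_ae (integrable_const _) ((i1.const_mul 2).add (i2.const_mul 2))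
    ((ae_restrict_mem₀ (measurableSet_ball.nullMeasurableSet.inter (h.null S))).mono
      fun x hx => ?_)).trans ?_
  · have h3 : T x = S := hx.2
    simp only [Pi.add_apply, h3]
    rw [show q - p - S.starProjection (q - p) = (x - p - S.starProjection (x - p)) -
      (x - q - S.starProjection (x - q)) by simp only [map_sub]; abel]
    have h4 := parallelogram_law_with_norm ℝ (x - p - S.starProjection (x - p))
      (x - q - S.starProjection (x - q))
    nlinarith [sq_nonneg ‖x - p - S.starProjection (x - p) + (x - q - S.starProjection (x - q))‖]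
  · simp only [Pi.add_apply]
    rw [integral_add (i1.const_mul 2) (i2.const_mul 2), integral_const_mul, integral_const_mul,
      pow_succ (4 : ℝ) (m + 3)]
    linarith

theorem Sys.dim (h : Sys m U μ T) (hm : 1 ≤ m) {K : Finset (Submodule ℝ V)}
    (hK : ∀ᵐ x ∂μ, T x ∈ K) (hne : K.Nonempty) (hKm : ∀ S ∈ K, finrank ℝ S = m) {Z : Set V}
    {r ε : ℝ} (hr : 0 < r) (hε : 0 < ε) (hU : ∀ p ∈ Z, closedBall p (4 * r) ⊆ U)
    (hZ : ∀ p ∈ Z, ∀ s, 0 < s → s ≤ r → ∀ S ∈ K, ε * s ^ m < μ.real (ball p s \ {x | T x = S})) :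
    dimH Z ≤ (m - 1 : ℕ) := by
  refine dimH_le fun d hd => le_of_not_gt fun hlt => ?_
  have hd' : ((m - 1 : ℕ) : ℝ) < d := by exact_mod_cast hlt
  obtain ⟨η, hη, hη0, hη1⟩ : ∃ η : ℝ, 5 ^ (m - 1) * η ^ ((d : ℝ) - (m - 1 : ℕ)) < 1 ∧
      η ∈ Ioo 0 (1 / 2) := by
    refine (Eventually.and ?_ (Ioo_mem_nhdsGT (by norm_num : (0 : ℝ) < 1 / 2))).exists
    refine Eventually.filter_mono nhdsWithin_le_nhds (ContinuousAt.eventually_lt ?_
      continuousAt_const (by rw [Real.zero_rpow (by linarith)]; simp))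
    exact continuousAt_const.mul (Real.continuousAt_rpow_const _ _ (Or.inr (by linarith)))
  choose C hC hC' using fun z : Submodule ℝ V × Submodule ℝ V => dist_inf z.1 z.2
  obtain ⟨z₀, -, hz₀⟩ := (K ×ˢ K).exists_max_image C (hne.product hne)
  have hC0 := hC z₀
  have hk : (0 : ℝ) < K.card := Nat.cast_pos.2 hne.card_pos
  set δ := ε * (η / (8 * C z₀)) ^ 2 / (4 ^ (m + 4) * K.card) with hδ
  have hle : ∀ k : ℕ, r * η ^ k ≤ r := fun k =>
    mul_le_of_le_one_right hr.le (pow_le_one₀ hη0.le (by linarith))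
  have hU' : ∀ p ∈ Z, ∀ k : ℕ, closedBall p (4 * (r * η ^ k)) ⊆ U := fun p hp k =>
    (closedBall_subset_closedBall (by linarith [hle k])).trans (hU p hp)
  have h1 : Z ⊆ ⋃ l : ℕ, {p ∈ Z | ∀ k, l ≤ k → Th m μ (fun _ => 1) p (4 * (r * η ^ k)) -
      Th m μ (fun _ => 1) p (3 * (r * η ^ k)) ≤ δ} := fun p hp => by
    have h2 : ∀ k : ℕ, Th m μ (fun _ => 1) p (4 * (r * η ^ (k + 1))) ≤
        Th m μ (fun _ => 1) p (3 * (r * η ^ k)) := fun k => h.mono (by positivity)
      (by rw [pow_succ]; nlinarith [(by positivity : 0 < r * η ^ k)])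
      ((closedBall_subset_closedBall (by linarith [(by positivity : 0 < r * η ^ k)])).trans
        (hU' p hp k))
    have h3 := tendsto_atTop_ciInf (f := fun k : ℕ => Th m μ (fun _ => 1) p (4 * (r * η ^ k)))
      (antitone_nat_of_succ_le fun k => (h2 k).trans (h.mono (by positivity)
        (by linarith [(by positivity : 0 < r * η ^ k)]) (hU' p hp k)))
      ⟨0, by
        rintro _ ⟨k, rfl⟩
        exact div_nonneg (integral_nonneg fun x => by simpa using bump_nonneg _ _ _)
          (by positivity)⟩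
    have h4 := h3.sub (h3.comp (tendsto_add_atTop_nat 1))
    rw [sub_self] at h4
    obtain ⟨l, hl⟩ := eventually_atTop.1 (h4.eventually (ge_mem_nhds (by positivity : 0 < δ)))
    exact mem_iUnion.2 ⟨l, hp, fun k hk => (sub_le_sub_left (h2 k) _).trans (hl k hk)⟩
  refine absurd hd (ne_top_of_le_ne_top ?_ (measure_mono h1))
  rw [measure_iUnion_null fun l => null_of_cover (r := r * η ^ l) (η := η) (M := (5 / η) ^ (m - 1))
    (by positivity) hη0 (by linarith) (by positivity) ((Nat.cast_nonneg _).trans_lt hd')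
    (by rwa [Real.rpow_sub hη0, Real.rpow_natCast, ← mul_div_assoc, mul_div_right_comm,
      ← div_pow] at hη) fun k p hp => ?_]
  · exact ENNReal.zero_ne_top
  rw [pow_succ, ← mul_assoc, mul_assoc r, ← pow_add]
  set s := r * η ^ (l + k) with hs
  have hs0 : 0 < s := by positivity
  obtain ⟨S, hS, S', hS', hSS, h2, h3⟩ := h.two hK hne (by positivity)
    (hZ p hp.1 s hs0 (hle _))
  set A := {p ∈ Z | ∀ k, l ≤ k → Th m μ (fun _ => 1) p (4 * (r * η ^ k)) -
      Th m μ (fun _ => 1) p (3 * (r * η ^ k)) ≤ δ}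
  have h4 : ∀ q ∈ A ∩ ball p s,
      ‖q - p - (S ⊓ S').starProjection (q - p)‖ ≤ s * η / 8 := fun q hq => by
    have h5 : ∀ A : Submodule ℝ V, ε * s ^ m / K.card ≤ μ.real (ball p s ∩ {x | T x = A}) →
        ‖q - p - A.starProjection (q - p)‖ ≤ s * (η / (8 * C z₀)) := fun A hA => by
      have h6 := (mul_le_mul_of_nonneg_right hA (sq_nonneg _)).trans (h.perp hs0 hq.2
        (hU' p hp.1 _) (hU' q hq.1.1 _) (hp.2 _ le_self_add) (hq.1.2 _ le_self_add) A)
      refine (abs_le_of_sq_le_sq' ?_ (by positivity)).2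
      rw [← le_div_iff₀' (by positivity)] at h6
      refine h6.trans_eq ?_
      rw [hδ]
      field_simp
      ring
    calc _ ≤ _ := hC' (S, S') (q - p)
      _ ≤ C z₀ * (s * (η / (8 * C z₀))) :=
          mul_le_mul (hz₀ _ (Finset.mk_mem_product hS hS')) (max_le (h5 S h2) (h5 S' h3))
            (le_max_of_le_left (norm_nonneg _)) hC0.le
      _ = _ := by field_simp
  obtain ⟨F, hF, hF', hF''⟩ := exists_max_sep (A ∩ ball p s) (R := fun x y => s * η ≤ dist x y)
    (M := (5 / η) ^ (m - 1)) (fun x y hxy => by rwa [dist_comm])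
    (fun x => by simpa using mul_pos hs0 hη0) fun F hF hR => by
      have h5 := packing F (fun q => (S ⊓ S').orthogonalProjectionOnto (q - p)) (a := s * η / 4)
        (r := s) (by positivity) hs0.le (fun q hq => (((S ⊓ S').norm_starProjection_apply_le _).trans
          (mem_ball_iff_norm.1 (hF hq).2).le :)) fun q hq q' hq' hqq => by
          have h6 := hR hq hq' hqq
          have h7 := norm_sub_le (q - p - (S ⊓ S').starProjection (q - p))
            (q' - p - (S ⊓ S').starProjection (q' - p))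
          have h8 := norm_add_le (q - p - (S ⊓ S').starProjection (q - p) -
            (q' - p - (S ⊓ S').starProjection (q' - p)))
            ((S ⊓ S').starProjection (q - p) - (S ⊓ S').starProjection (q' - p))
          rw [show q - p - (S ⊓ S').starProjection (q - p) -
            (q' - p - (S ⊓ S').starProjection (q' - p)) +
            ((S ⊓ S').starProjection (q - p) - (S ⊓ S').starProjection (q' - p)) = q - q' by abel,
            ← dist_eq_norm q] at h8
          change _ < ‖(S ⊓ S').starProjection (q - p) - (S ⊓ S').starProjection (q' - p)‖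
          linarith [h4 q (hF hq), h4 q' (hF hq'), mul_pos hs0 hη0]
      rw [← le_div_iff₀ (by positivity), ← div_pow] at h5
      refine h5.trans ((pow_le_pow_left₀ (by positivity) (b := 5 / η) ?_ _).trans
        (pow_le_pow_right₀ ?_ (finrank_inf (hKm S hS) (hKm S' hS') hSS)))
      · rw [div_le_div_iff₀ (by positivity) hη0]
        nlinarith [mul_pos hs0 hη0]
      · rw [one_le_div hη0]
        linarith
  exact ⟨F, fun x hx => (hF hx).1, hF', fun x hx =>
    (hF'' x hx).imp fun y hy => ⟨hy.1, not_le.1 hy.2⟩⟩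

end Vale.Agent.P214
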