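import Vale.Agent.P214.Mono

/-! P214: the tilt vanishes when it is small and has a gap. -/

open MeasureTheory Set Metric Filter Topology Module
open scoped RealInnerProductSpace

noncomputable section

namespace Vale.Agent.P214

theorem exists_max_sep {α : Type} (A : Set α) {R : α → α → Prop} (hs : ∀ x y, R x y → R y x)
    (hi : ∀ x, ¬R x x) {M : ℝ}
    (hM : ∀ F : Finset α, ↑F ⊆ A → (F : Set α).Pairwise R → (F.card : ℝ) ≤ M) :
    ∃ F : Finset α, ↑F ⊆ A ∧ (F.card : ℝ) ≤ M ∧ ∀ x ∈ A, ∃ y ∈ F, ¬R x y := by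
  classical
  by_contra hc
  push Not at hc
  have h1 : ∀ n : ℕ, ∃ F : Finset α, ↑F ⊆ A ∧ (F : Set α).Pairwise R ∧ F.card = n := fun n => by
    induction n with
    | zero => exact ⟨∅, by simp, by simp, rfl⟩
    | succ n ih =>
      obtain ⟨F, hF, hR, hn⟩ := ih
      obtain ⟨x, hx, hx'⟩ := hc F hF (hM F hF hR)
      refine ⟨insert x F, by simpa [insert_subset_iff] using ⟨hx, hF⟩, ?_,
        by rw [Finset.card_insert_of_notMem fun h => hi x (hx' x h), hn]⟩
      rw [Finset.coe_insert]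
      exact hR.insert fun y hy _ => ⟨hx' y hy, hs _ _ (hx' y hy)⟩
  obtain ⟨n, hn⟩ := exists_nat_gt M
  obtain ⟨F, hF, hR, rfl⟩ := h1 n
  exact absurd (hM F hF hR) (not_le.2 hn)

variable {V : Type} [NormedAddCommGroup V] [InnerProductSpace ℝ V] [FiniteDimensional ℝ V]
  [MeasurableSpace V] [BorelSpace V] {m : ℕ} {U : Set V} {μ : Measure V} {T : V → Submodule ℝ V}

/-- Points with a lower density bound. -/
def Den (m : ℕ) (U : Set V) (μ : Measure V) (c : ℝ) : Set V :=
  {x | ∀ r, 0 < r → closedBall x r ⊆ U → c ≤ Th m μ (fun _ => 1) x r}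

theorem Sys.count (h : Sys m U μ T) {S : Submodule ℝ V} {e p : V} (he : e ∈ Sᗮ) (he1 : ‖e‖ ≤ 1)
    {w σ ρ c : ℝ} (hw : 0 < w) (hσ : w ≤ σ) (hU : closedBall p (ρ + σ) ⊆ U)
    (hb : 4 * μ.real (ball p (ρ + σ) \ {x | T x = S}) * 2 ^ m / w ^ (m + 1) * σ ≤ c / 8)
    {ι : Type} (F : Finset ι) (y : ι → V) (hy : ∀ i ∈ F, y i ∈ Den m U μ c ∩ ball p ρ)
    (hF : (F : Set ι).Pairwise fun i j => 2 * w ≤ |⟪e, y i - y j⟫|) :
    F.card * (c / 8 * σ ^ m) ≤ μ.real (ball p (ρ + σ)) := by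
  have := h.fin
  have hσ0 := hw.trans_le hσ
  have hs : ∀ i ∈ F, ball (y i) σ ⊆ ball p (ρ + σ) := fun i hi =>
    ball_subset_ball' (by linarith [mem_ball.1 (hy i hi).2])
  have hs' : ∀ i ∈ F, closedBall (y i) σ ⊆ U := fun i hi =>
    (closedBall_subset_closedBall' (by linarith [mem_ball.1 (hy i hi).2])).trans hU
  have h1 : ∀ i ∈ F, c / 8 * σ ^ m ≤ μ.real (ball (y i) σ ∩ {x | |⟪e, x - y i⟫| < w}) :=
    fun i hi => by
      have h2 := h.slab he he1 hw hσ (hs' i hi)
      have h3 := (hy i hi).1 (w / 2) (half_pos hw)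
        ((closedBall_subset_closedBall (by linarith)).trans (hs' i hi))
      have h4 : 4 * μ.real (ball (y i) σ \ {x | T x = S}) * 2 ^ m / w ^ (m + 1) * σ ≤
          4 * μ.real (ball p (ρ + σ) \ {x | T x = S}) * 2 ^ m / w ^ (m + 1) * σ := by
        have h5 := measureReal_mono (μ := μ)
          (diff_subset_diff_left (t := {x | T x = S}) (hs i hi))
        gcongr
      rw [← le_div_iff₀ (by positivity)]
      linarith
  calc _ ≤ ∑ i ∈ F, μ.real (ball (y i) σ ∩ {x | |⟪e, x - y i⟫| < w}) := by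
        simpa using Finset.card_nsmul_le_sum F _ _ h1
    _ = μ.real (⋃ i ∈ F, ball (y i) σ ∩ {x | |⟪e, x - y i⟫| < w}) := by
        refine (measureReal_biUnion_finset (fun i hi j hj hij => ?_) fun i _ =>
          measurableSet_ball.inter (isOpen_lt (by fun_prop) continuous_const).measurableSet).symm
        refine disjoint_left.2 fun x hx hx' => ?_
        have h2 := hF hi hj hij
        have h3 := abs_lt.1 (show |⟪e, x - y i⟫| < w from hx.2)
        have h4 := abs_lt.1 (show |⟪e, x - y j⟫| < w from hx'.2)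
        simp only [inner_sub_right] at h2 h3 h4
        refine absurd h2 (not_le.2 (abs_lt.2 ⟨by linarith, by linarith⟩))
    _ ≤ _ := measureReal_mono (iUnion₂_subset fun i hi => inter_subset_left.trans (hs i hi))

theorem Sys.cacc (h : Sys m U μ T) {S : Submodule ℝ V} {e p : V} (he : e ∈ Sᗮ) (he1 : ‖e‖ ≤ 1)
    {ρ σ K : ℝ} (hρ : 0 ≤ ρ) (hσ : 0 < σ) (hU : closedBall p (ρ + σ) ⊆ U) {f f' : ℝ → ℝ}
    (hf : ∀ t, HasDerivAt f (f' t) t) (hc : Continuous f') (h0 : ∀ t, 0 ≤ f' t)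
    (hK : ∀ t, |f t| ≤ K) (h1 : ∀ᵐ x ∂μ, x ∈ ball p ρ → 1 ≤ f' ⟪e, x⟫) :
    (σ / (ρ + σ)) ^ 2 * ∫ x in ball p ρ, ‖(T x).starProjection e‖ ^ 2 ∂μ ≤
      μ.real (ball p (ρ + σ) \ {x | T x = S}) * (K * (4 / (ρ + σ))) := by
  have := h.fin
  have hr : 0 < ρ + σ := by linarith
  have hfc : Continuous f := continuous_iff_continuousAt.2 fun t => (hf t).continuousAt
  have h2 := h.stat (fun x => bump p (ρ + σ) x * f ⟪e, x⟫)
    (fun x => bump p (ρ + σ) x • f' ⟪e, x⟫ • innerSL ℝ e + f ⟪e, x⟫ • bump' p (ρ + σ) x) p (ρ + σ)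
    (fun x => (hasFDerivAt_bump p _ x).mul
      ((hf _).comp_hasFDerivAt x (f := fun x => ⟪e, x⟫) (innerSL ℝ e).hasFDerivAt))
    (by fun_prop) hU (fun x hx => by simp [bump_zero hr hx]) e
  simp only [add_apply, smul_apply, smul_eq_mul, innerSL_apply_apply, inner_proj] at h2
  have i1 := h.integrable (F := fun z => bump p (ρ + σ) z.1 * (f' ⟪e, z.1⟫ * ‖z.2 e‖ ^ 2))
    (by fun_prop) p (ρ + σ) fun x hx _ => by simp [bump_zero hr hx]
  have i2 := h.integrable (F := fun z => f ⟪e, z.1⟫ * bump' p (ρ + σ) z.1 (z.2 e))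
    (by fun_prop) p (ρ + σ) fun x hx _ => by simp [bump'_zero hr hx]
  rw [integral_add i1 i2, add_eq_zero_iff_eq_neg, ← integral_neg] at h2
  have hn := measurableSet_ball.nullMeasurableSet.diff (h.null S) (s := ball p (ρ + σ))
  rw [← smul_eq_mul (μ.real _), ← setIntegral_const, ← integral_indicator₀ hn, ← integral_const_mul]
  refine le_trans ?_ (h2.le.trans (integral_mono i2.neg ((integrable_const _).indicator₀ hn)
    fun x => ?_))
  · refine le_trans (setIntegral_mono_on_ae (h.integrableOn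
      (F := fun z => (σ / (ρ + σ)) ^ 2 * ‖z.2 e‖ ^ 2) (by fun_prop) p _) i1.integrableOn
      measurableSet_ball (h1.mono fun x hx hx' => ?_))
      (setIntegral_le_integral i1 (Eventually.of_forall fun x =>
        mul_nonneg (bump_nonneg _ _ _) (mul_nonneg (h0 _) (sq_nonneg _))))
    have h3 := le_bump hρ (by linarith : ρ ≤ ρ + σ) hr (mem_ball_iff_norm.1 hx').le
    rw [add_sub_cancel_left] at h3
    exact mul_le_mul h3 (le_mul_of_one_le_left (sq_nonneg _) (hx hx')) (sq_nonneg _)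
      (bump_nonneg _ _ _)
  · by_cases hx : x ∈ ball p (ρ + σ) \ {x | T x = S}
    · rw [indicator_of_mem hx]
      refine (neg_le_abs _).trans ?_
      rw [abs_mul]
      refine mul_le_mul (hK _) (((bump' p (ρ + σ) x).le_opNorm _).trans ?_) (abs_nonneg _)
        ((abs_nonneg _).trans (hK 0))
      exact (mul_le_of_le_one_right (norm_nonneg _)
        (((T x).norm_starProjection_apply_le e).trans he1)).trans (norm_bump'_le p hr x)
    · rw [indicator_of_notMem hx]
      rcases not_and_or.1 hx with hx | hx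
      · simp [bump'_zero hr hx]
      · have h3 : (T x).starProjection e = 0 := by
          rw [show T x = S from not_not.1 hx]
          exact (Submodule.starProjection_apply_eq_zero_iff S).2 he
        simp [h3]

theorem Sys.tilt (h : Sys m U μ T) {c : ℝ} (hc : 0 < c) (hD : ∀ᵐ x ∂μ, x ∈ Den m U μ c)
    {S : Submodule ℝ V} {e p : V} (he : e ∈ Sᗮ) (he1 : ‖e‖ ≤ 1) {w σ ρ : ℝ} (hw : 0 < w)
    (hσ : w ≤ σ) (hρ : 0 ≤ ρ) (hU : closedBall p (ρ + σ) ⊆ U)
    (hb : 4 * μ.real (ball p (ρ + σ) \ {x | T x = S}) * 2 ^ m / w ^ (m + 1) * σ ≤ c / 8) :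
    ∫ x in ball p ρ, ‖(T x).starProjection e‖ ^ 2 ∂μ ≤ μ.real (ball p (ρ + σ) \ {x | T x = S}) *
      (256 * (ρ + σ) * w * μ.real (ball p (ρ + σ)) / (c * σ ^ (m + 2))) := by
  have hσ0 := hw.trans_le hσ
  obtain ⟨F, -, hF, hF'⟩ := exists_max_sep (Den m U μ c ∩ ball p ρ)
    (R := fun x y => 2 * w ≤ |⟪e, x - y⟫|) (M := μ.real (ball p (ρ + σ)) / (c / 8 * σ ^ m))
    (fun x y hxy => by rwa [← neg_sub, inner_neg_right, abs_neg])
    (fun x => by simpa using hw) fun F hF hR => by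
      rw [le_div_iff₀ (by positivity)]
      exact h.count he he1 hw hσ hU hb F id (fun i hi => hF hi) hR
  have h1 := h.cacc he he1 hρ hσ0 hU (K := F.card * (8 * w))
    (f := fun t => ∑ y ∈ F, 4 * w * Real.arctan ((t - ⟪e, y⟫) / (2 * w)))
    (f' := fun t => ∑ y ∈ F, 2 / (1 + ((t - ⟪e, y⟫) / (2 * w)) ^ 2))
    (fun t => HasDerivAt.fun_sum fun y _ => by
      refine ((((hasDerivAt_id t).sub_const _).div_const (2 * w)).arctan.const_mul
        (4 * w)).congr_deriv ?_
      simp only [id]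
      field_simp
      ring)
    (continuous_finsetSum _ fun y _ => continuous_const.div (by fun_prop) fun t => by positivity)
    (fun t => Finset.sum_nonneg fun y _ => by positivity)
    (fun t => by
      refine (Finset.abs_sum_le_sum_abs _ _).trans ?_
      rw [← nsmul_eq_mul]
      refine Finset.sum_le_card_nsmul _ _ _ fun y _ => ?_
      rw [abs_mul, abs_of_pos (by positivity : 0 < 4 * w)]
      have h2 := abs_lt.2 ⟨Real.neg_pi_div_two_lt_arctan ((t - ⟪e, y⟫) / (2 * w)),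
        Real.arctan_lt_pi_div_two _⟩
      nlinarith [Real.pi_lt_four])
    (hD.mono fun x hx hx' => by
      obtain ⟨y, hy, hxy⟩ := hF' x ⟨hx, hx'⟩
      refine le_trans ?_ (Finset.single_le_sum
        (f := fun y => 2 / (1 + ((⟪e, x⟫ - ⟪e, y⟫) / (2 * w)) ^ 2)) (fun y _ => by positivity) hy)
      rw [one_le_div (by positivity), ← inner_sub_right]
      have h2 : |⟪e, x - y⟫ / (2 * w)| ≤ 1 := by
        rw [abs_div, abs_of_pos (by positivity : 0 < 2 * w), div_le_one (by positivity)]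
        exact (not_le.1 hxy).le
      linarith [(sq_le_one_iff_abs_le_one _).2 h2])
  have hr : 0 < ρ + σ := by linarith
  rw [← le_div_iff₀' (by positivity)] at h1
  refine h1.trans ?_
  calc _ ≤ μ.real (ball p (ρ + σ) \ {x | T x = S}) * (μ.real (ball p (ρ + σ)) / (c / 8 * σ ^ m) *
        (8 * w) * (4 / (ρ + σ))) / (σ / (ρ + σ)) ^ 2 := by gcongr
    _ = _ := by field_simp; ring

/-- The normal components of a basis. -/
def nrm (S : Submodule ℝ V) (i : Fin (finrank ℝ V)) : V :=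
  stdOrthonormalBasis ℝ V i - S.starProjection (stdOrthonormalBasis ℝ V i)

omit [MeasurableSpace V] [BorelSpace V] in
theorem nrm_mem (S : Submodule ℝ V) (i : Fin (finrank ℝ V)) : nrm S i ∈ Sᗮ :=
  Submodule.sub_starProjection_mem_orthogonal _

omit [MeasurableSpace V] [BorelSpace V] in
theorem norm_nrm (S : Submodule ℝ V) (i : Fin (finrank ℝ V)) : ‖nrm S i‖ ≤ 1 := by
  rw [nrm, ← Submodule.starProjection_orthogonal_val]
  exact (Submodule.norm_starProjection_apply_le _ _).trans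
    ((stdOrthonormalBasis ℝ V).norm_eq_one i).le

/-- The tilt of `A` with respect to `S`. -/
def tl (A S : Submodule ℝ V) : ℝ := ∑ i, ‖A.starProjection (nrm S i)‖ ^ 2

theorem Sys.step (h : Sys m U μ T) {c γ : ℝ} (hc : 0 < c) (hD : ∀ᵐ x ∂μ, x ∈ Den m U μ c)
    {S : Submodule ℝ V} {p : V} {w σ ρ : ℝ} (hw : 0 < w) (hσ : w ≤ σ) (hρ : 0 ≤ ρ)
    (hU : closedBall p (ρ + σ) ⊆ U) (hg : ∀ᵐ x ∂μ, x ∈ ball p ρ → T x ≠ S → γ ≤ tl (T x) S)
    (hb : 4 * μ.real (ball p (ρ + σ) \ {x | T x = S}) * 2 ^ m / w ^ (m + 1) * σ ≤ c / 8) :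
    μ.real (ball p ρ \ {x | T x = S}) * γ ≤ finrank ℝ V *
      (μ.real (ball p (ρ + σ) \ {x | T x = S}) *
        (256 * (ρ + σ) * w * μ.real (ball p (ρ + σ)) / (c * σ ^ (m + 2)))) := by
  have := h.fin
  have hn := measurableSet_ball.nullMeasurableSet.diff (h.null S) (s := ball p ρ)
  have hi := h.integrableOn (F := fun z => ∑ i, ‖z.2 (nrm S i)‖ ^ 2) (by fun_prop) p ρ
  calc _ = ∫ x in ball p ρ \ {x | T x = S}, γ ∂μ := by rw [setIntegral_const, smul_eq_mul]
    _ ≤ ∫ x in ball p ρ \ {x | T x = S}, tl (T x) S ∂μ :=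
        integral_mono_ae (integrable_const _) (hi.mono_set diff_subset)
          ((ae_restrict_iff'₀ hn).2 (hg.mono fun x hx hx' => hx hx'.1 hx'.2))
    _ ≤ ∫ x in ball p ρ, tl (T x) S ∂μ := setIntegral_mono_set hi
        (Eventually.of_forall fun x => Finset.sum_nonneg fun i _ => sq_nonneg _)
        diff_subset.eventuallyLE
    _ = ∑ i, ∫ x in ball p ρ, ‖(T x).starProjection (nrm S i)‖ ^ 2 ∂μ :=
        integral_finsetSum _ fun i _ =>
          h.integrableOn (F := fun z => ‖z.2 (nrm S i)‖ ^ 2) (by fun_prop) p ρ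
    _ ≤ _ := by
        simpa using Finset.sum_le_card_nsmul Finset.univ _ _ fun i _ =>
          h.tilt hc hD (nrm_mem S i) (norm_nrm S i) hw hσ hρ hU hb

variable (V) in
theorem eps_reg (m : ℕ) {c γ Λ : ℝ} (hc : 0 < c) (hγ : 0 < γ) (hΛ : 0 < Λ) : ∃ ε > 0,
    ∀ (U : Set V) (μ : Measure V) (T : V → Submodule ℝ V), Sys m U μ T →
      (∀ᵐ x ∂μ, x ∈ Den m U μ c) → ∀ (S : Submodule ℝ V) (p : V) (R : ℝ), 0 < R →
      closedBall p R ⊆ U → μ.real (ball p R) ≤ Λ * R ^ m →
      (∀ᵐ x ∂μ, x ∈ ball p R → T x ≠ S → γ ≤ tl (T x) S) →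
      μ.real (ball p R \ {x | T x = S}) ≤ ε * R ^ m → μ.real (ball p (R / 2) \ {x | T x = S}) = 0 := by
  set n : ℝ := finrank ℝ V + 1
  have hn : (finrank ℝ V : ℝ) ≤ n := by simp [n]
  have hn0 : 0 < n := by positivity
  set l : ℝ := ((1 / 2) ^ (m + 2)) ^ (m + 1)
  have hl : 0 < l := by positivity
  set a := min (1 / 4) (γ * l * c / (256 * n * Λ * 4 ^ (m + 2)))
  have ha : 0 < a := lt_min (by norm_num) (by positivity)
  have ha1 : a ≤ 1 / 4 := min_le_left _ _
  have ha2 : a * (256 * n * Λ * 4 ^ (m + 2)) ≤ γ * l * c :=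
    (le_div_iff₀ (by positivity)).1 (min_le_right _ _)
  refine ⟨c * a ^ (m + 1) / (32 * 2 ^ m), by positivity,
    fun U μ T h hD S p R hR hU hm hg hb => ?_⟩
  have := h.fin
  set ε := c * a ^ (m + 1) / (32 * 2 ^ m) with hε
  have h1 : ∀ t : ℝ, 0 < t → t ≤ 1 →
      μ.real (ball p (R * (1 + t) / 2) \ {x | T x = S}) ≤ ε * R ^ m * (t ^ (m + 2)) ^ (m + 1) →
      μ.real (ball p (R * (1 + t / 2) / 2) \ {x | T x = S}) ≤
        ε * R ^ m * ((t / 2) ^ (m + 2)) ^ (m + 1) := fun t ht ht1 hb => by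
    have e1 : R * (1 + t / 2) / 2 + R * t / 4 = R * (1 + t) / 2 := by ring
    have hle : R * (1 + t) / 2 ≤ R := by nlinarith
    have h2 := h.step hc hD (S := S) (p := p) (w := R * a * t ^ (m + 2)) (σ := R * t / 4)
      (ρ := R * (1 + t / 2) / 2) (by positivity)
      (by
        have : t ^ (m + 2) ≤ t := pow_le_of_le_one ht.le ht1 (by omega)
        calc R * a * t ^ (m + 2) ≤ R * (1 / 4) * t := by gcongr
          _ = _ := by ring) (by positivity)
      (by rw [e1]; exact (closedBall_subset_closedBall hle).trans hU)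
      (hg.mono fun x hx hx' => hx (ball_subset_ball (by nlinarith) hx'))
      (by
        rw [e1]
        calc _ ≤ 4 * (ε * R ^ m * (t ^ (m + 2)) ^ (m + 1)) * 2 ^ m /
              (R * a * t ^ (m + 2)) ^ (m + 1) * R := by gcongr; nlinarith
          _ = _ := by rw [hε, mul_pow, mul_pow]; field_simp; ring)
    rw [e1] at h2
    have h3 : μ.real (ball p (R * (1 + t) / 2)) ≤ Λ * R ^ m :=
      (measureReal_mono (ball_subset_ball hle)).trans hm
    refine le_of_mul_le_mul_right (h2.trans ?_) hγ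
    calc _ ≤ n * (ε * R ^ m * (t ^ (m + 2)) ^ (m + 1) *
          (256 * R * (R * a * t ^ (m + 2)) * (Λ * R ^ m) / (c * (R * t / 4) ^ (m + 2)))) := by
          gcongr
      _ = ε * R ^ m * (t ^ (m + 2)) ^ (m + 1) * (a * (256 * n * Λ * 4 ^ (m + 2)) / c) := by
          rw [div_pow, mul_pow]
          field_simp
          ring
      _ ≤ ε * R ^ m * (t ^ (m + 2)) ^ (m + 1) * (γ * l * c / c) := by gcongr
      _ = _ := by
          rw [show t / 2 = t * (1 / 2) by ring, mul_pow, mul_pow]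
          field_simp
          ring
  have h2 : ∀ k : ℕ, μ.real (ball p (R * (1 + (1 / 2) ^ k) / 2) \ {x | T x = S}) ≤
      ε * R ^ m * (((1 / 2) ^ k) ^ (m + 2)) ^ (m + 1) := fun k => by
    induction k with
    | zero => simpa [one_add_one_eq_two] using hb
    | succ k ih =>
      rw [pow_succ (1 / 2 : ℝ), mul_one_div]
      exact h1 _ (by positivity) (pow_le_one₀ (by norm_num) (by norm_num)) ih
  refine le_antisymm (ge_of_tendsto' (f := fun k : ℕ => ε * R ^ m * (1 / 2) ^ k) (x := atTop) ?_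
    fun k => ?_) measureReal_nonneg
  · simpa using (tendsto_pow_atTop_nhds_zero_of_lt_one (r := (1 / 2 : ℝ)) (by norm_num)
      (by norm_num)).const_mul (ε * R ^ m)
  · have h3 : (0 : ℝ) < (1 / 2) ^ k := by positivity
    refine (measureReal_mono (diff_subset_diff_left (ball_subset_ball (by nlinarith)))).trans
      ((h2 k).trans ?_)
    rw [← pow_mul]
    gcongr
    exact pow_le_of_le_one h3.le (pow_le_one₀ (by norm_num) (by norm_num)) (by positivity)

theorem Sys.height (h : Sys m U μ T) {c : ℝ} (hc : 0 < c) {S : Submodule ℝ V} {p : V} {R : ℝ}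
    (hR : 0 < R) (hU : closedBall p R ⊆ U) (hb : μ.real (ball p R \ {x | T x = S}) = 0) :
    ∀ᶠ x in 𝓝 p, x ∈ Den m U μ c → x - p ∈ S := by
  have h1 : ∀ i, ∀ᶠ x in 𝓝 p, x ∈ Den m U μ c → ⟪nrm S i, x - p⟫ = 0 := fun i => by
    have hfin : ((fun x => ⟪nrm S i, x - p⟫) '' (Den m U μ c ∩ ball p (R / 2))).Finite := by
      by_contra hinf
      obtain ⟨N, hN⟩ := exists_nat_gt (μ.real (ball p R) / (c / 8 * (R / 2) ^ m))
      obtain ⟨t, ht, rfl⟩ := Set.Infinite.exists_subset_card_eq hinf N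
      choose! y hy hy' using ht
      have h2 : ∀ᶠ w in 𝓝[>] (0 : ℝ), ∀ z ∈ t.offDiag, 2 * w ≤ |z.1 - z.2| :=
        (Filter.eventually_all_finset _).2 fun z hz => by
          have h3 : 0 < |z.1 - z.2| := abs_sub_pos.2 (Finset.mem_offDiag.1 hz).2.2
          filter_upwards [Ioo_mem_nhdsGT (half_pos h3)] with w hw
          linarith [hw.2]
      obtain ⟨w, hw, hw'⟩ := (h2.and (Ioo_mem_nhdsGT (half_pos hR))).exists
      have h3 := h.count (p := p) (ρ := R / 2) (c := c) (nrm_mem S i) (norm_nrm S i) hw'.1 hw'.2.le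
        (by rwa [add_halves]) (by rw [add_halves, hb]; simp; positivity) t y (fun a ha => hy ha)
        fun a ha b hb hab => by
          have h4 := hw (a, b) (Finset.mem_offDiag.2 ⟨ha, hb, hab⟩)
          rwa [← hy' ha, ← hy' hb, ← inner_sub_right, sub_sub_sub_cancel_right] at h4
      rw [add_halves, ← le_div_iff₀ (by positivity)] at h3
      exact absurd h3 (not_le.2 hN)
    have h2 := (hfin.diff (t := {0})).isClosed.isOpen_compl.mem_nhds (x := (0 : ℝ)) (by simp)
    have h3 : Tendsto (fun x => ⟪nrm S i, x - p⟫) (𝓝 p) (𝓝 0) := by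
      simpa using (by fun_prop : Continuous fun x => ⟪nrm S i, x - p⟫).tendsto p
    filter_upwards [h3.eventually h2, ball_mem_nhds p (half_pos hR)] with x hx hx' hD
    by_contra h0
    exact hx ⟨⟨x, ⟨hD, hx'⟩, rfl⟩, h0⟩
  filter_upwards [eventually_all.2 h1] with x hx hD
  rw [← Submodule.starProjection_eq_self_iff, eq_comm, ← sub_eq_zero]
  refine InnerProductSpace.ext_inner_left_basis (stdOrthonormalBasis ℝ V).toBasis fun i => ?_
  have h2 := hx i hD
  rw [nrm, inner_sub_left, Submodule.inner_starProjection_left_eq_right] at h2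
  simpa [inner_sub_right] using h2

end Vale.Agent.P214
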