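import Vale.Agent.P214.Const
import Vale.Agent.P214.Dim

/-! P214: density bounds, localization and the local regularity statement. -/

open MeasureTheory Set Metric Filter Topology Module
open scoped RealInnerProductSpace ENNReal NNReal

noncomputable section

namespace Vale.Agent.P214

variable {V : Type} [NormedAddCommGroup V] [InnerProductSpace ℝ V] [FiniteDimensional ℝ V]

theorem norm_sq_le_tl {A S : Submodule ℝ V} (h : finrank ℝ A = finrank ℝ S) :
    ‖A.starProjection - S.starProjection‖ ^ 2 ≤ 2 * tl A S := by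
  set b := stdOrthonormalBasis ℝ V
  have hA : ∑ i, ‖A.starProjection (b i)‖ ^ 2 = finrank ℝ A := by
    simpa only [inner_proj] using trace_proj A
  have hS : ∑ i, ‖S.starProjection (b i)‖ ^ 2 = finrank ℝ A := by
    simpa only [inner_proj, h] using trace_proj S
  have h1 : ∑ i, ‖A.starProjection (S.starProjection (b i))‖ ^ 2 =
      ∑ i, ⟪A.starProjection (b i), S.starProjection (b i)⟫ := by
    have h2 := LinearMap.trace_mul_comm ℝ (S.starProjection : V →ₗ[ℝ] V)
      ((A.starProjection : V →ₗ[ℝ] V) * (S.starProjection : V →ₗ[ℝ] V))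
    rw [LinearMap.trace_eq_sum_inner _ b, LinearMap.trace_eq_sum_inner _ b] at h2
    simp only [Module.End.mul_apply, ContinuousLinearMap.coe_coe,
      Submodule.starProjection_eq_self_iff.2 (S.starProjection_apply_mem _)] at h2
    simp only [← inner_proj, Submodule.inner_starProjection_left_eq_right]
    exact h2
  have h2 : ∑ i, ‖(A.starProjection - S.starProjection) (b i)‖ ^ 2 = 2 * tl A S := by
    have h3 : ∀ i, ⟪A.starProjection (b i), A.starProjection (S.starProjection (b i))⟫ =
        ⟪A.starProjection (b i), S.starProjection (b i)⟫ := fun i => by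
      rw [← Submodule.inner_starProjection_left_eq_right,
        Submodule.starProjection_eq_self_iff.2 (A.starProjection_apply_mem _)]
    simp only [tl, nrm, map_sub, sub_apply, norm_sub_sq_real, Finset.sum_add_distrib,
      Finset.sum_sub_distrib, ← Finset.mul_sum]
    rw [hA, hS, h1, Finset.sum_congr rfl fun i _ => h3 i]
    ring
  rw [← h2]
  refine (Real.le_sqrt (norm_nonneg _) (by positivity)).1
    (ContinuousLinearMap.opNorm_le_bound _ (Real.sqrt_nonneg _) fun v => ?_)
  rw [← Real.sqrt_sq (norm_nonneg v), ← Real.sqrt_mul (by positivity), ← b.sum_sq_norm_inner_right]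
  refine Real.le_sqrt_of_sq_le (le_trans (pow_le_pow_left₀ (norm_nonneg _) ?_ 2)
    (Finset.sum_mul_sq_le_sq_mul_sq _ _ _))
  conv_lhs => rw [← b.sum_repr' v, map_sum]
  refine (norm_sum_le _ _).trans_eq (Finset.sum_congr rfl fun i _ => ?_)
  rw [map_smul, norm_smul, mul_comm]

variable [MeasurableSpace V] [BorelSpace V] {m : ℕ} {U : Set V} {μ : Measure V}
  {T : V → Submodule ℝ V}

theorem Stationary.sys (h : Stationary U μ T)
    (hm : AEStronglyMeasurable (fun x => (T x).starProjection) μ)
    (hr : ∀ᵐ x ∂μ, finrank ℝ (T x) = m) {B : Set V} (hB : B ⊆ U) (hf : μ B < ⊤) :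
    Sys m B (μ.restrict B) T where
  fin := isFiniteMeasure_restrict.2 hf.ne
  meas := hm.restrict
  rank := ae_restrict_of_ae hr
  stat φ φ' p r hφ hc hU h0 w := by
    have hX : ∀ x, HasFDerivAt (fun x => φ x • w) ((φ' x).smulRight w) x := fun x =>
      (hφ x).smul_const w
    have h1 : ∀ x, x ∉ closedBall p r → φ x • w = 0 := fun x hx => by
      rw [h0 x fun h => hx (ball_subset_closedBall h), zero_smul]
    have h2 := h (fun x => φ x • w) (contDiff_one_iff_hasFDerivAt.2 ⟨_, by fun_prop, hX⟩)
      (HasCompactSupport.intro (isCompact_closedBall p r) h1)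
      ((closure_minimal (Function.support_subset_iff'.2 h1) isClosed_closedBall).trans
        (hU.trans hB))
    have h3 : ∀ x, x ∉ closedBall p r → φ' x ((T x).starProjection w) = 0 := fun x hx => by
      rw [(hφ x).unique ((hasFDerivAt_const (0 : ℝ) x).congr_of_eventuallyEq
        (Filter.mem_of_superset (isClosed_closedBall.isOpen_compl.mem_nhds hx) fun y hy =>
          h0 y fun h => hy (ball_subset_closedBall h))), zero_apply]
    rw [← setIntegral_eq_integral_of_forall_compl_eq_zero h3,
      Measure.restrict_restrict_of_subset hU, setIntegral_eq_integral_of_forall_compl_eq_zero h3,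
      ← h2]
    refine integral_congr_ae (Eventually.of_forall fun x => ?_)
    simp only [(hX x).fderiv]
    rw [← ContinuousLinearMap.coe_coe (φ' x), ← LinearMap.trace_smulRight]
    congr 1
    ext v
    simp

theorem ae_upper {E : Set V} (hE : MeasurableSet E) [IsFiniteMeasure μ]
    (h : (μH[m] : Measure V).restrict E ≤ μ) {δ : ℝ} (hδ : 0 < δ) :
    (μH[m] : Measure V).restrict E
      {x | ∀ s ∈ Ioo 0 δ, μ.real (closedBall x s) < s ^ m / 2} = 0 := by
  set A := {x | ∀ s ∈ Ioo 0 δ, μ.real (closedBall x s) < s ^ m / 2}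
  set ν := (μH[m] : Measure V).restrict E
  have h1 : (2 : ℝ≥0∞) • ν.restrict A ≤ μH[m] := by
    refine Measure.le_hausdorffMeasure _ _ (ENNReal.ofReal (δ / 2)) (by simpa using hδ)
      fun t ht => ?_
    have hne : ediam t ≠ ⊤ := ne_top_of_le_ne_top ENNReal.ofReal_ne_top ht
    refine (measure_mono subset_closure).trans ?_
    rw [Measure.smul_apply, Measure.restrict_apply isClosed_closure.measurableSet]
    rcases (closure t ∩ A).eq_empty_or_nonempty with h0 | ⟨x, hx, hxA⟩
    · simp [h0]
    have hd : diam t < δ := (ENNReal.toReal_le_of_le_ofReal (half_pos hδ).le ht).trans_lt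
      (half_lt_self hδ)
    rw [← ENNReal.ofReal_toReal hne, ENNReal.ofReal_rpow_of_nonneg ENNReal.toReal_nonneg
      (Nat.cast_nonneg _), Real.rpow_natCast]
    refine ge_of_tendsto (f := fun s : ℝ => ENNReal.ofReal (s ^ m)) (x := 𝓝[>] diam t)
      (ENNReal.tendsto_ofReal (((continuous_pow m).tendsto _).mono_left nhdsWithin_le_nhds)) ?_
    filter_upwards [Ioo_mem_nhdsGT hd] with s hs
    have h2 : closure t ∩ A ⊆ closedBall x s := fun y hy => by
      have := dist_le_diam_of_mem' (s := closure t) (by rwa [ediam_closure]) hy.1 hx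
      rw [diam_closure] at this
      exact this.trans hs.1.le
    have h3 := (hxA s ⟨diam_nonneg.trans_lt hs.1, hs.2⟩).le
    calc (2 : ℝ≥0∞) • ν (closure t ∩ A) ≤ 2 * μ (closedBall x s) :=
          mul_le_mul_right ((h _).trans (measure_mono h2)) 2
      _ = ENNReal.ofReal (2 * μ.real (closedBall x s)) := by
          rw [ENNReal.ofReal_mul zero_le_two, ofReal_measureReal]
          simp
      _ ≤ _ := ENNReal.ofReal_le_ofReal (by linarith)
  have h2 := h1 (toMeasurable (μH[m] : Measure V) (A ∩ E))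
  rw [measure_toMeasurable, ← Measure.restrict_apply' hE, Measure.smul_apply,
    Measure.restrict_apply (measurableSet_toMeasurable _ _)] at h2
  have h3 : ν A ≤ ν (toMeasurable (μH[m] : Measure V) (A ∩ E) ∩ A) := by
    rw [Measure.restrict_apply' hE, Measure.restrict_apply' hE]
    exact measure_mono fun x hx => ⟨⟨subset_toMeasurable _ _ hx, hx.1⟩, hx.2⟩
  have h4 : ν A + ν A ≤ 0 + ν A := by
    rw [← two_mul, zero_add]
    exact (mul_le_mul_right h3 2).trans h2
  exact le_zero_iff.1 ((ENNReal.add_le_add_iff_right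
    (ne_top_of_le_ne_top (measure_ne_top μ A) (h A))).1 h4)

theorem ae_den {E : Set V} {θ : V → ℕ} (h : Sys m U (weight m E θ) T)
    (h1 : ∀ᵐ x ∂(μH[m] : Measure V).restrict E, 1 ≤ θ x) :
    ∀ᵐ x ∂weight m E θ, x ∈ Den m U (weight m E θ) (1 / (8 * 2 ^ m)) := by
  have := h.fin
  have hE : (μH[m] : Measure V) E ≠ ⊤ := by
    rw [← Measure.restrict_apply_univ]
    exact ne_top_of_le_ne_top (measure_ne_top _ _) (le_weight h1 univ)
  have h2 : ∀ᵐ x ∂weight m E θ, ∀ k : ℕ, ¬∀ s ∈ Ioo 0 (1 / ((k : ℝ) + 1)),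
      (weight m E θ).real (closedBall x s) < s ^ m / 2 := by
    refine ae_all_iff.2 fun k => (withDensity_absolutelyContinuous _ _).ae_le ?_
    have h3 := ae_upper (μ := weight m E θ) (measurableSet_toMeasurable (μH[m] : Measure V) E)
      (by rw [Measure.restrict_toMeasurable hE]; exact le_weight h1)
      (Nat.one_div_pos_of_nat (n := k))
    rw [Measure.restrict_toMeasurable hE] at h3
    exact measure_eq_zero_iff_ae_notMem.1 h3
  refine h2.mono fun x hx r hr hU => ?_
  obtain ⟨k, hk⟩ := exists_nat_one_div_lt (half_pos hr)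
  have h3 := hx k
  push Not at h3
  obtain ⟨s, hs, hs'⟩ := h3
  have hs0 := hs.1
  refine le_trans ?_ ((h.le_Th x hs0).trans (h.mono (by positivity) (by linarith [hs.2]) hU))
  calc _ = s ^ m / 2 / (4 * (2 * s) ^ m) := by rw [mul_pow]; field_simp; norm_num
    _ ≤ _ := by gcongr

theorem Sys.upper (h : Sys m U μ T) {p : V} {ρ s : ℝ} (hU : closedBall p (2 * ρ) ⊆ U) (hs : 0 < s)
    (hρ : s ≤ ρ) : μ.real (closedBall p s) ≤ (4 * μ.real univ / ρ ^ m + 1) * s ^ m := by
  have := h.fin
  have hρ0 := hs.trans_le hρ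
  have h1 := (h.le_Th p hs).trans ((h.mono (by positivity) (by linarith) hU).trans
    (h.Th_le MeasurableSet.univ continuous_const (fun _ => le_rfl) (by simp) p (by positivity)))
  rw [div_le_iff₀ (by positivity)] at h1
  calc _ ≤ _ := h1
    _ ≤ μ.real univ / (2 * ρ) ^ m * (4 * (2 * s) ^ m) := by
        have := measureReal_mono (μ := μ) (subset_univ (ball p (2 * ρ) ∩ univ))
        gcongr
    _ = 4 * μ.real univ / ρ ^ m * s ^ m := by rw [mul_pow, mul_pow]; field_simp
    _ ≤ _ := by gcongr; linarith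

theorem Sys.lower (h : Sys m U μ T) {c : ℝ} (hD : ∀ᵐ x ∂μ, x ∈ Den m U μ c) {p : V}
    (hp : p ∈ μ.support) {s : ℝ} (hs : 0 < s) (hU : closedBall p s ⊆ U) :
    c * (s / 2) ^ m ≤ μ.real (closedBall p s) := by
  have := h.fin
  obtain ⟨y, hy, hy'⟩ := Measure.exists_mem_of_measure_ne_zero_of_ae
    ((Measure.mem_support_iff_forall p).1 hp _ (ball_mem_nhds p (half_pos hs))).ne'
    (ae_restrict_of_ae hD)
  have h1 : closedBall y (s / 2) ⊆ closedBall p s :=
    closedBall_subset_closedBall' (by linarith [mem_ball.1 hy])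
  have h2 := (hy' _ (half_pos hs) (h1.trans hU)).trans
    (h.Th_le MeasurableSet.univ continuous_const (fun _ => le_rfl) (by simp) y (half_pos hs))
  rw [le_div_iff₀ (by positivity)] at h2
  exact h2.trans (measureReal_mono (inter_subset_left.trans (ball_subset_closedBall.trans h1)))

theorem null_of_lower [IsFiniteMeasure μ] {A : Set V} {c δ : ℝ} (hc : 0 < c) (hδ : 0 < δ)
    (h : ∀ x ∈ A, ∀ s ∈ Ioo 0 δ, c * (s / 2) ^ m ≤ μ.real (closedBall x s)) (h0 : μ A = 0) :
    (μH[m] : Measure V) A = 0 := by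
  have h1 := fun k : ℕ => Besicovitch.exists_closedBall_covering_tsum_measure_le μ
    (ε := ENNReal.ofReal (1 / ((k : ℝ) + 1))) (by simpa using Nat.cast_add_one_pos k)
    (fun _ => Ioo 0 (min δ (1 / ((k : ℝ) + 1)))) A fun x _ a ha => by
      rw [Ioo_inter_Ioo]
      exact nonempty_Ioo.2 (by simp [hδ, ha, Nat.cast_add_one_pos])
  choose t r ht htA hr hc' hs using h1
  have := fun k => (ht k).to_subtype
  have hd : ∀ k (x : t k), ediam (closedBall (x : V) (r k x)) ≤ ENNReal.ofReal (2 * r k x) :=
    fun k x => ediam_le_of_forall_dist_le fun a ha b hb => by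
      linarith [dist_triangle_right a b x, mem_closedBall.1 ha, mem_closedBall.1 hb]
  have h2 := Measure.hausdorffMeasure_le_liminf_tsum (m : ℝ) A (l := atTop)
    (fun k : ℕ => ENNReal.ofReal (2 * (1 / ((k : ℝ) + 1)))) (by
      simpa using ENNReal.tendsto_ofReal
        ((tendsto_one_div_add_atTop_nhds_zero_nat (𝕜 := ℝ)).const_mul 2))
    (fun k (x : t k) => closedBall (x : V) (r k x))
    (Eventually.of_forall fun k x => (hd k x).trans (ENNReal.ofReal_le_ofReal (by
      linarith [(lt_min_iff.1 (hr k x x.2).2).2])))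
    (Eventually.of_forall fun k => (hc' k).trans (biUnion_eq_iUnion _ _).subset)
  have h3 : Tendsto (fun k : ℕ => ENNReal.ofReal (4 ^ m / c * (1 / ((k : ℝ) + 1)))) atTop (𝓝 0) := by
    simpa using ENNReal.tendsto_ofReal
      ((tendsto_one_div_add_atTop_nhds_zero_nat (𝕜 := ℝ)).const_mul (4 ^ m / c))
  refine le_antisymm (h2.trans ((liminf_le_liminf (Eventually.of_forall fun k => ?_)).trans_eq
    h3.liminf_eq)) zero_le
  have h4 := hs k
  rw [h0, zero_add] at h4
  rw [ENNReal.ofReal_mul (by positivity)]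
  refine le_trans ?_ (mul_le_mul_right h4 _)
  rw [← ENNReal.tsum_mul_left]
  refine ENNReal.tsum_le_tsum fun x => (ENNReal.rpow_le_rpow (hd k x) (Nat.cast_nonneg _)).trans ?_
  have h5 := (hr k x x.2).1
  rw [ENNReal.ofReal_rpow_of_nonneg (by positivity) (Nat.cast_nonneg _), Real.rpow_natCast,
    ← ofReal_measureReal, ← ENNReal.ofReal_mul (by positivity)]
  refine ENNReal.ofReal_le_ofReal ?_
  calc _ = 4 ^ m / c * (c * (r k x / 2) ^ m) := by
        rw [show 2 * r k x = 4 * (r k x / 2) by ring, mul_pow]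
        field_simp
    _ ≤ _ := by
        gcongr
        exact h x (htA k x.2) _ ⟨h5, (lt_min_iff.1 (hr k x x.2).2).1⟩

theorem flat_of_zero {E : Set V} {θ : V → ℕ} (h : Sys m U (weight m E θ) T)
    (hθ : AEMeasurable θ ((μH[m] : Measure V).restrict E))
    (h1 : ∀ᵐ x ∂(μH[m] : Measure V).restrict E, 1 ≤ θ x) {S : Submodule ℝ V}
    (hm : finrank ℝ S = m) {p : V} (hp : p ∈ (weight m E θ).support) {R : ℝ} (hR : 0 < R)
    (hU : closedBall p R ⊆ U) (hb : (weight m E θ).real (ball p R \ {x | T x = S}) = 0) :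
    FlatAt m (weight m E θ) p := by
  have := h.fin
  obtain ⟨s, hs, hs'⟩ := Metric.eventually_nhds_iff_ball.1
    (h.height (c := 1 / (8 * 2 ^ m)) (by positivity) hR hU hb)
  rw [measureReal_eq_zero_iff, measure_eq_zero_iff_ae_notMem] at hb
  refine flat_of_weight h hθ h1 hm hp (lt_min hs hR)
    ((closedBall_subset_closedBall (min_le_right _ _)).trans hU) ?_
  filter_upwards [ae_den h h1, hb] with x hx hx' hx''
  exact ⟨by_contra fun h => hx' ⟨ball_subset_ball (min_le_right _ _) hx'', h⟩,
    hs' x (ball_subset_ball (min_le_left _ _) hx'') hx⟩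

theorem FlatAt.of_restrict {B : Set V} (hB : IsOpen B) {p : V} (hp : p ∈ B)
    (h : FlatAt m (μ.restrict B) p) : FlatAt m μ p := by
  obtain ⟨r, hr, L, hL, q, hq, h1, h2⟩ := h
  obtain ⟨s, hs, hs'⟩ := Metric.isOpen_iff.1 hB p hp
  have h3 : ball p (min r s) ⊆ ball p r := ball_subset_ball (min_le_left _ _)
  have h4 : ball p (min r s) ⊆ B := (ball_subset_ball (min_le_right _ _)).trans hs'
  refine ⟨min r s, lt_min hr hs, L, hL, q, hq, ?_, ?_⟩
  · ext x
    refine and_congr_left fun hx => ⟨fun hx' => ?_, fun hx' => ?_⟩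
    · exact (h1.subset ⟨Measure.interior_inter_support ⟨by rw [hB.interior_eq]; exact h4 hx, hx'⟩,
        h3 hx⟩).1
    · exact (Measure.support_restrict_subset (h1.symm.subset ⟨hx', h3 hx⟩).1).2
  · rw [← Measure.restrict_restrict_of_subset h4, ← Measure.restrict_restrict_of_subset h3, h2,
      Measure.restrict_smul, Measure.restrict_restrict measurableSet_ball, inter_left_comm,
      inter_eq_left.2 h3]

end Vale.Agent.P214
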