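import Vale.Agent.P214.Loc

/-! P214: the global statements. -/

open MeasureTheory Set Metric Filter Topology Module
open scoped RealInnerProductSpace ENNReal NNReal

noncomputable section

namespace Vale.Agent.P214

variable {V : Type} [NormedAddCommGroup V] [InnerProductSpace ℝ V] [FiniteDimensional ℝ V]
  [MeasurableSpace V] [BorelSpace V] {m : ℕ} {U E : Set V} {θ : V → ℕ} {T : V → Submodule ℝ V}

theorem IsStatVar.loc (h : IsStatVar m U E θ T) (hU : IsOpen U) {o : V} (ho : o ∈ U) :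
    ∃ R > 0, ∃ μ : Measure V, μ = (weight m E θ).restrict (ball o (4 * R)) ∧
      Sys m (ball o (4 * R)) μ T ∧ (∀ᵐ x ∂μ, x ∈ Den m (ball o (4 * R)) μ (1 / (8 * 2 ^ m))) ∧
      (∀ p ∈ ball o R, closedBall p (2 * R) ⊆ ball o (4 * R)) ∧
      ∀ p ∈ NonFlat m U (weight m E θ) ∩ ball o R, p ∈ μ.support ∧ ∀ S : Submodule ℝ V,
        finrank ℝ S = m → ∀ s, 0 < s → s ≤ R → μ.real (ball p s \ {x | T x = S}) ≠ 0 := by
  obtain ⟨r, hr, hr'⟩ := Metric.nhds_basis_closedBall.mem_iff.1 (hU.mem_nhds ho)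
  have h1 : (weight m E θ).restrict (ball o r) = weight m (ball o r ∩ E) θ := by
    rw [weight, restrict_withDensity measurableSet_ball,
      Measure.restrict_restrict measurableSet_ball, weight]
  have h2 := h.stat.sys h.measT h.rank (ball_subset_closedBall.trans hr')
    ((measure_mono ball_subset_closedBall).trans_lt (h.fin _ (isCompact_closedBall o r) hr'))
  have h3 : ∀ᵐ x ∂(μH[m] : Measure V).restrict (ball o r ∩ E), 1 ≤ θ x :=
    ae_restrict_of_ae_restrict_of_subset inter_subset_right ((ae_restrict_mem₀ h.measE).mono h.pos)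
  have h4 : ∀ p ∈ ball o (r / 4), closedBall p (2 * (r / 4)) ⊆ ball o r := fun p hp =>
    closedBall_subset_ball' (by linarith [mem_ball.1 hp])
  rw [← show 4 * (r / 4) = r by ring] at h1 h2 h3 h4
  simp only [show 4 * (r / 4) / 4 = r / 4 by ring] at h4
  refine ⟨r / 4, by positivity, _, rfl, h2, by rw [h1] at h2 ⊢; exact ae_den h2 h3, h4,
    fun p hp => ?_⟩
  have h5 : p ∈ ball o (4 * (r / 4)) := ball_subset_ball (by linarith) hp.2
  have h6 : p ∈ ((weight m E θ).restrict (ball o (4 * (r / 4)))).support :=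
    Measure.interior_inter_support ⟨by rwa [isOpen_ball.interior_eq], hp.1.2.1⟩
  refine ⟨h6, fun S hS s hs hs' h0 => hp.1.2.2 (FlatAt.of_restrict isOpen_ball h5 ?_)⟩
  rw [h1] at h0 h2 h6 ⊢
  exact flat_of_zero h2 (h.measθ.mono_measure (Measure.restrict_mono inter_subset_right le_rfl)) h3
    hS h6 hs ((closedBall_subset_closedBall (by linarith)).trans (h4 p hp.2)) h0

theorem IsStatVar.dim (h : IsStatVar m U E θ T) (hU : IsOpen U) (hm : 1 ≤ m)
    {K : Finset (Submodule ℝ V)} (hK : ∀ᵐ x ∂weight m E θ, T x ∈ K) :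
    dimH (NonFlat m U (weight m E θ)) ≤ (m - 1 : ℕ) := by
  classical
  by_contra hc
  obtain ⟨o, ho, ho'⟩ := exists_mem_nhdsWithin_lt_dimH_of_lt_dimH (not_le.1 hc)
  obtain ⟨R, hR, μ, hμ, hs, hD, hB, hZ⟩ := h.loc hU ho.1
  refine absurd (ho' _ (inter_mem_nhdsWithin _ (ball_mem_nhds o hR))) (not_lt.2 ?_)
  have hK' : ∀ᵐ x ∂μ, T x ∈ K.filter fun S : Submodule ℝ V => finrank ℝ S = m := by
    filter_upwards [hs.rank, hμ ▸ ae_restrict_of_ae hK] with x h1 h2
    exact Finset.mem_filter.2 ⟨h2, h1⟩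
  set K' := K.filter fun S : Submodule ℝ V => finrank ℝ S = m
  have hKm : ∀ S ∈ K', finrank ℝ S = m := fun S hS => (Finset.mem_filter.1 hS).2
  obtain ⟨x, -, hx⟩ := Measure.exists_mem_of_measure_ne_zero_of_ae
    ((Measure.mem_support_iff_forall o).1 (hZ o ⟨ho, mem_ball_self hR⟩).1 _ univ_mem).ne'
    (ae_restrict_of_ae hK')
  have h1 : ∀ᶠ γ in 𝓝[>] (0 : ℝ), ∀ z ∈ K'.offDiag, γ ≤ tl z.1 z.2 :=
    (Filter.eventually_all_finset _).2 fun z hz => by
      obtain ⟨h1, h2, h3⟩ := Finset.mem_offDiag.1 hz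
      have h4 := norm_sq_le_tl ((hKm _ h1).trans (hKm _ h2).symm)
      have h5 : 0 < ‖z.1.starProjection - z.2.starProjection‖ := norm_sub_pos_iff.2 fun h => h3 (by
        rw [← z.1.range_starProjection, h, z.2.range_starProjection])
      filter_upwards [Ioo_mem_nhdsGT (by nlinarith : 0 < tl z.1 z.2)] with γ hγ using hγ.2.le
  obtain ⟨γ, hγ, hγ0⟩ := (h1.and self_mem_nhdsWithin).exists
  have := hs.fin
  obtain ⟨ε, hε, hreg⟩ := eps_reg V m (c := 1 / (8 * 2 ^ m)) (Λ := 4 * μ.real univ / R ^ m + 1)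
    (by positivity) hγ0 (by positivity)
  refine hs.dim hm hK' ⟨_, hx⟩ hKm (half_pos hR) hε
    (fun p hp => by rw [show 4 * (R / 2) = 2 * R by ring]; exact hB p hp.2)
    fun p hp s hs0 hs1 S hS => lt_of_not_ge fun hb => (hZ p hp).2 S (hKm S hS) (s / 2)
      (half_pos hs0) (by linarith) (hreg _ μ T hs hD S p s hs0
        ((closedBall_subset_closedBall (by linarith)).trans (hB p hp.2))
        ((measureReal_mono ball_subset_closedBall).trans (hs.upper (hB p hp.2) hs0 (by linarith)))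
        (hK'.mono fun y hy _ hy' => hγ (T y, S) (Finset.mem_offDiag.2 ⟨hy, hS, hy'⟩)) hb)

theorem IsStatVar.null (h : IsStatVar m U E θ T) (hU : IsOpen U) {B : Set V}
    (hI : ∀ᵐ x ∂weight m E θ, x ∈ B → Isolated (weight m E θ) T x) :
    (μH[m] : Measure V) (NonFlat m U (weight m E θ) ∩ B) = 0 := by
  refine measure_null_of_locally_null _ fun o ho => ?_
  obtain ⟨R, hR, μ, hμ, hs, hD, hB, hZ⟩ := h.loc hU ho.1.1
  refine ⟨_, inter_mem_nhdsWithin _ (ball_mem_nhds o hR), ?_⟩
  have := hs.fin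
  refine null_of_lower (μ := μ) (c := 1 / (8 * 2 ^ m)) (by positivity) hR
    (fun x hx s hs' => hs.lower hD (hZ x ⟨hx.1.1, hx.2⟩).1 hs'.1
      ((closedBall_subset_closedBall (by linarith [hs'.2])).trans (hB x hx.2))) ?_
  have hi : Integrable (fun x => (T x).starProjection) μ :=
    Integrable.of_bound hs.meas 1 (Eventually.of_forall fun x => (T x).starProjection_norm_le)
  rw [measure_eq_zero_iff_ae_notMem]
  filter_upwards [(Besicovitch.vitaliFamily μ).ae_tendsto_average_norm_sub hi.locallyIntegrable,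
    hs.rank, hμ ▸ ae_restrict_of_ae hI] with x h1 h2 h3 hx
  obtain ⟨γ, hγ, h4⟩ := h3 hx.1.2
  have h5 : ∀ᵐ y ∂μ, y ∈ ball x γ → T y ≠ T x →
      γ ≤ ‖(T y).starProjection - (T x).starProjection‖ := hμ ▸ ae_restrict_of_ae h4
  set Λ := 4 * μ.real univ / R ^ m + 1
  have hΛ : 0 < Λ := by positivity
  obtain ⟨ε, hε, hreg⟩ := eps_reg V m (c := 1 / (8 * 2 ^ m)) (γ := γ ^ 2 / 2) (by positivity)
    (by positivity) hΛ
  obtain ⟨s, h6, hs0, hs1⟩ := (((h1.comp (Besicovitch.tendsto_filterAt μ x)).eventually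
    (ge_mem_nhds (by positivity : 0 < ε * γ / Λ))).and (Ioo_mem_nhdsGT (lt_min hγ hR))).exists
  obtain ⟨hs1, hs2⟩ := lt_min_iff.1 hs1
  have h7 := hs.upper (hB x hx.2) hs0 hs2.le
  refine (hZ x ⟨hx.1.1, hx.2⟩).2 (T x) h2 (s / 2) (half_pos hs0) (by linarith)
    (hreg _ μ T hs hD (T x) x s hs0
      ((closedBall_subset_closedBall (by linarith)).trans (hB x hx.2))
      ((measureReal_mono ball_subset_closedBall).trans h7) ?_ ?_)
  · filter_upwards [h5, hs.rank] with y hy hy' hb hne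
    have h8 := pow_le_pow_left₀ hγ.le (hy (ball_subset_ball hs1.le hb) hne) 2
    linarith [norm_sq_le_tl (hy'.trans h2.symm)]
  · have hn := measurableSet_ball.nullMeasurableSet.diff (hs.null (T x)) (s := ball x s)
    have hi' := (hi.sub (integrable_const (T x).starProjection)).norm
    refine le_of_mul_le_mul_right ?_ hγ
    calc _ = ∫ y in ball x s \ {y | T y = T x}, γ ∂μ := by rw [setIntegral_const, smul_eq_mul]
      _ ≤ ∫ y in ball x s \ {y | T y = T x}, ‖(T y).starProjection - (T x).starProjection‖ ∂μ :=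
          integral_mono_ae (integrable_const _) hi'.integrableOn ((ae_restrict_iff'₀ hn).2
            (h5.mono fun y hy hy' => hy (ball_subset_ball hs1.le hy'.1) hy'.2))
      _ ≤ ∫ y in closedBall x s, ‖(T y).starProjection - (T x).starProjection‖ ∂μ :=
          setIntegral_mono_set hi'.integrableOn (Eventually.of_forall fun y => norm_nonneg _)
            (diff_subset.trans ball_subset_closedBall).eventuallyLE
      _ = μ.real (closedBall x s) *
          ⨍ y in closedBall x s, ‖(T y).starProjection - (T x).starProjection‖ ∂μ :=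
          (measure_smul_setAverage _ (measure_ne_top _ _)).symm
      _ ≤ Λ * s ^ m * (ε * γ / Λ) := mul_le_mul h7 h6
          (integral_nonneg fun y => norm_nonneg _) (by positivity)
      _ = _ := by field_simp

end Vale.Agent.P214
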