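import Vale.Agent.P214.Basic

/-! P214: the monotonicity formula with a weight. -/

open MeasureTheory Set Metric Filter Topology Module
open scoped RealInnerProductSpace

noncomputable section

namespace Vale.Agent.P214

theorem mvt {f f' : ℝ → ℝ} {a b c : ℝ} (hab : a ≤ b) (hf : ∀ s ∈ Icc a b, HasDerivAt f (f' s) s)
    (hc : ∀ s ∈ Icc a b, c ≤ f' s) : c * (b - a) ≤ f b - f a :=
  (convex_Icc a b).mul_sub_le_image_sub_of_le_deriv
    (fun s hs => (hf s hs).continuousAt.continuousWithinAt)
    (fun s hs => (hf s (interior_subset hs)).differentiableAt.differentiableWithinAt)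
    (fun s hs => by rw [(hf s (interior_subset hs)).deriv]; exact hc s (interior_subset hs))
    a (left_mem_Icc.2 hab) b (right_mem_Icc.2 hab) hab

theorem deriv_div_pow {F : ℝ → ℝ} {F' r : ℝ} (m : ℕ) (hr : 0 < r) (h : HasDerivAt F F' r) :
    HasDerivAt (fun s => F s / s ^ m) ((r * F' - m * F r) / r ^ (m + 1)) r := by
  refine (h.div (hasDerivAt_pow m r) (by positivity)).congr_deriv ?_
  rcases m with _ | k
  · simp
    field_simp
  · simp only [Nat.add_sub_cancel]
    field_simp
    ring

variable {V : Type} [NormedAddCommGroup V] [InnerProductSpace ℝ V] [FiniteDimensional ℝ V]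
  [MeasurableSpace V] [BorelSpace V] {m : ℕ} {U : Set V} {μ : Measure V} {T : V → Submodule ℝ V}

theorem Sys.integrableOn (h : Sys m U μ T) {F : V × (V →L[ℝ] V) → ℝ} (hF : Continuous F) (p : V)
    (r : ℝ) : IntegrableOn (fun x => F (x, (T x).starProjection)) (ball p r) μ := by
  have := h.fin
  obtain ⟨C, hC⟩ := ((isCompact_closedBall p r).prod
    (isCompact_closedBall (0 : V →L[ℝ] V) 1)).exists_bound_of_continuousOn hF.continuousOn
  refine Integrable.of_bound
    (hF.comp_aestronglyMeasurable (aestronglyMeasurable_id.prodMk h.meas)).restrict C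
    ((ae_restrict_mem measurableSet_ball).mono fun x hx => ?_)
  exact hC (x, (T x).starProjection) ⟨ball_subset_closedBall hx,
    mem_closedBall_zero_iff.2 (T x).starProjection_norm_le⟩

theorem Sys.null (h : Sys m U μ T) (S : Submodule ℝ V) : NullMeasurableSet {x | T x = S} μ := by
  have h1 := h.meas.nullMeasurableSet_eq_fun (aestronglyMeasurable_const (b := S.starProjection))
  convert h1 using 3 with x
  exact ⟨fun h => by rw [h], fun h => by
    rw [← (T x).range_starProjection, h, S.range_starProjection]⟩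

/-- The weighted mass ratio. -/
def Th (m : ℕ) (μ : Measure V) (ψ : V → ℝ) (p : V) (r : ℝ) : ℝ :=
  (∫ x, ψ x * bump p r x ∂μ) / r ^ m

theorem Sys.deriv_Th (h : Sys m U μ T) {ψ : V → ℝ} {ψ' : V → V →L[ℝ] ℝ} {p : V} {r : ℝ}
    (hψ : ∀ x, HasFDerivAt ψ (ψ' x) x) (hc : Continuous ψ') (hr : 0 < r)
    (hU : closedBall p r ⊆ U) : HasDerivAt (Th m μ ψ p)
      ((∫ x, (4 * ψ x * max (1 - ‖x - p‖ ^ 2 / r ^ 2) 0 *
        ‖x - p - (T x).starProjection (x - p)‖ ^ 2 / r ^ 2 +
          bump p r x * ψ' x ((T x).starProjection (x - p))) ∂μ) / r ^ (m + 1)) r := by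
  have := h.fin
  have hψc : Continuous ψ := continuous_iff_continuousAt.2 fun x => (hψ x).continuousAt
  obtain ⟨C, hC⟩ := (isCompact_closedBall p (2 * r)).exists_bound_of_continuousOn hψc.continuousOn
  have hC0 : 0 ≤ C := (norm_nonneg _).trans (hC p (mem_closedBall_self (by positivity)))
  have hi : Integrable (fun x => ψ x * bump p r x) μ :=
    h.integrable (F := fun z => ψ z.1 * bump p r z.1) (by fun_prop) p r fun x hx _ => by
      simp [bump_zero hr hx]
  obtain ⟨hi', h1⟩ := hasDerivAt_integral_of_dominated_loc_of_deriv_le (μ := μ)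
    (F := fun s x => ψ x * bump p s x)
    (F' := fun s x => ψ x * (2 * max (1 - ‖x - p‖ ^ 2 / s ^ 2) 0 * (2 * ‖x - p‖ ^ 2 / s ^ 3)))
    (bound := fun _ => C * (8 / r)) (Ioo_mem_nhds (half_lt_self hr) (by linarith : r < 2 * r))
    (Eventually.of_forall fun s => Continuous.aestronglyMeasurable (by fun_prop)) hi
    (Continuous.aestronglyMeasurable (by fun_prop))
    (Eventually.of_forall fun x s hs => by
      have hs0 : 0 < s := (half_pos hr).trans hs.1
      by_cases hx : x ∈ ball p s
      · rw [norm_mul]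
        refine mul_le_mul (hC x (ball_subset_closedBall (ball_subset_ball hs.2.le hx))) ?_
          (norm_nonneg _) hC0
        have h1 : max (1 - ‖x - p‖ ^ 2 / s ^ 2) 0 ≤ 1 :=
          max_le (sub_le_self _ (by positivity)) zero_le_one
        have h2 := (mem_ball_iff_norm.1 hx).le
        rw [Real.norm_of_nonneg (by positivity)]
        calc _ ≤ 2 * 1 * (2 * s ^ 2 / s ^ 3) := by gcongr
          _ = 4 / s := by field_simp; norm_num
          _ ≤ 8 / r := by
            rw [div_le_div_iff₀ hs0 hr]
            linarith [hs.1]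
      · rw [max_eq_right (out_nonpos hs0 hx)]
        simp only [mul_zero, zero_mul, norm_zero]
        positivity)
    (integrable_const _)
    (Eventually.of_forall fun x s hs => by
      have hs0 : 0 < s := (half_pos hr).trans hs.1
      have h1 : HasDerivAt (fun s : ℝ => 1 - ‖x - p‖ ^ 2 / s ^ 2) (2 * ‖x - p‖ ^ 2 / s ^ 3) s := by
        refine (((hasDerivAt_const s (‖x - p‖ ^ 2)).div (hasDerivAt_pow 2 s)
          (by positivity)).const_sub 1).congr_deriv ?_
        field_simp
        simp
        ring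
      exact ((hasDerivAt_sq' _).comp s h1).const_mul (ψ x))
  refine (deriv_div_pow m hr h1).congr_deriv ?_
  congr 1
  have h2 := h.radial (φ := fun x => ψ x * bump p r x)
    (φ' := fun x => ψ x • bump' p r x + bump p r x • ψ' x)
    (fun x => (hψ x).mul (hasFDerivAt_bump p r x)) (by fun_prop) hU
    (fun x hx => by simp [bump_zero hr hx]) fun x hx => by simp [bump_zero hr hx, bump'_zero hr hx]
  have hi2 := h.integrable (F := fun z => m * (ψ z.1 * bump p r z.1) +
    (ψ z.1 • bump' p r z.1 + bump p r z.1 • ψ' z.1) (z.2 (z.1 - p))) (by fun_prop) p r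
    fun x hx A => by simp [bump_zero hr hx, bump'_zero hr hx]
  have h3 := integral_add ((hi'.const_mul r).sub (hi.const_mul m)) hi2
  rw [h2, add_zero] at h3
  rw [← integral_const_mul, ← integral_const_mul,
    ← integral_sub (hi'.const_mul _) (hi.const_mul _)]
  refine h3.symm.trans (integral_congr_ae (Eventually.of_forall fun x => ?_))
  simp only [Pi.sub_apply, add_apply, smul_apply, smul_eq_mul, bump', innerSL_apply_apply,
    inner_proj, norm_perp_sq]
  field_simp
  ring

theorem Sys.deriv_one (h : Sys m U μ T) {p : V} {r : ℝ} (hr : 0 < r) (hU : closedBall p r ⊆ U) :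
    HasDerivAt (Th m μ (fun _ => 1) p) ((∫ x, 4 * max (1 - ‖x - p‖ ^ 2 / r ^ 2) 0 *
      ‖x - p - (T x).starProjection (x - p)‖ ^ 2 / r ^ 2 ∂μ) / r ^ (m + 1)) r := by
  simpa using h.deriv_Th (ψ := fun _ => 1) (ψ' := fun _ => 0) (fun x => hasFDerivAt_const _ _)
    continuous_const hr hU

theorem Sys.mono (h : Sys m U μ T) {p : V} {a b : ℝ} (ha : 0 < a) (hab : a ≤ b)
    (hU : closedBall p b ⊆ U) : Th m μ (fun _ => 1) p a ≤ Th m μ (fun _ => 1) p b := by
  have h1 := mvt (c := 0) hab (fun s hs => h.deriv_one (ha.trans_le hs.1)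
    ((closedBall_subset_closedBall hs.2).trans hU)) fun s hs => by
      have := ha.trans_le hs.1
      positivity
  linarith

theorem Sys.pinch (h : Sys m U μ T) {p : V} {r : ℝ} (hr : 0 < r) (hU : closedBall p (4 * r) ⊆ U) :
    ∫ x in ball p (2 * r), ‖x - p - (T x).starProjection (x - p)‖ ^ 2 ∂μ ≤
      4 ^ (m + 3) * r ^ (m + 2) *
        (Th m μ (fun _ => 1) p (4 * r) - Th m μ (fun _ => 1) p (3 * r)) := by
  set I := ∫ x in ball p (2 * r), ‖x - p - (T x).starProjection (x - p)‖ ^ 2 ∂μ with hI
  have h1 := mvt (c := I / (4 * r) ^ (m + 3)) (by linarith : 3 * r ≤ 4 * r)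
    (fun s hs => h.deriv_one (by linarith [hs.1]) ((closedBall_subset_closedBall hs.2).trans hU))
    fun s hs => by
      have hs0 : 0 < s := by linarith [hs.1]
      have h2 : I / (4 * r) ^ 2 ≤ ∫ x, 4 * max (1 - ‖x - p‖ ^ 2 / s ^ 2) 0 *
          ‖x - p - (T x).starProjection (x - p)‖ ^ 2 / s ^ 2 ∂μ := by
        have hi := h.integrable (F := fun z => 4 * max (1 - ‖z.1 - p‖ ^ 2 / s ^ 2) 0 *
          ‖z.1 - p - z.2 (z.1 - p)‖ ^ 2 / s ^ 2) (by fun_prop) p s fun x hx A => by
            simp [max_eq_right (out_nonpos hs0 hx)]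
        rw [hI, ← integral_div]
        refine le_trans (setIntegral_mono_on ((h.integrableOn
          (F := fun z => ‖z.1 - p - z.2 (z.1 - p)‖ ^ 2 / (4 * r) ^ 2) (by fun_prop) p _))
          hi.integrableOn measurableSet_ball fun x hx => ?_)
          (setIntegral_le_integral hi (Eventually.of_forall fun x => by positivity))
        have h3 : ‖x - p‖ ^ 2 / s ^ 2 ≤ 3 / 4 := by
          rw [div_le_iff₀ (by positivity)]
          nlinarith [mem_ball_iff_norm.1 hx, hs.1, norm_nonneg (x - p)]
        have h4 : 1 ≤ 4 * max (1 - ‖x - p‖ ^ 2 / s ^ 2) 0 := by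
          linarith [le_max_left (1 - ‖x - p‖ ^ 2 / s ^ 2) 0]
        calc _ ≤ 1 * ‖x - p - (T x).starProjection (x - p)‖ ^ 2 / s ^ 2 := by
              rw [one_mul]
              gcongr
              exact hs.2
          _ ≤ _ := by gcongr
      have hI0 : 0 ≤ I := integral_nonneg fun x => sq_nonneg _
      calc I / (4 * r) ^ (m + 3) = I / (4 * r) ^ 2 / (4 * r) ^ (m + 1) := by
            field_simp
            ring
        _ ≤ I / (4 * r) ^ 2 / s ^ (m + 1) := by gcongr; exact hs.2
        _ ≤ _ := by gcongr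
  calc I = 4 ^ (m + 3) * r ^ (m + 2) * (I / (4 * r) ^ (m + 3) * (4 * r - 3 * r)) := by
        field_simp
        ring
    _ ≤ _ := by gcongr

theorem Sys.Th_le (h : Sys m U μ T) {ψ : V → ℝ} {A : Set V} (hA : MeasurableSet A)
    (hψ : Continuous ψ) (h1 : ∀ x, ψ x ≤ 1) (h0 : ∀ x, x ∉ A → ψ x = 0) (p : V) {r : ℝ}
    (hr : 0 < r) : Th m μ ψ p r ≤ μ.real (ball p r ∩ A) / r ^ m := by
  have := h.fin
  refine div_le_div_of_nonneg_right ?_ (by positivity)
  rw [← integral_indicator_one (measurableSet_ball.inter hA)]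
  refine integral_mono (h.integrable (F := fun z => ψ z.1 * bump p r z.1) (by fun_prop) p r
    fun x hx _ => by simp [bump_zero hr hx])
    ((integrable_const 1).indicator (measurableSet_ball.inter hA)) fun x => ?_
  by_cases hx : x ∈ ball p r ∩ A
  · rw [indicator_of_mem hx]
    exact (mul_le_mul_of_nonneg_right (h1 x) (bump_nonneg _ _ _)).trans
      (by simpa using bump_le_one p r x)
  · rw [indicator_of_notMem hx]
    rcases not_and_or.1 hx with hx | hx
    · simp [bump_zero hr hx]
    · simp [h0 x hx]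

theorem Sys.le_Th (h : Sys m U μ T) (p : V) {r : ℝ} (hr : 0 < r) :
    μ.real (closedBall p r) / (4 * (2 * r) ^ m) ≤ Th m μ (fun _ => 1) p (2 * r) := by
  have := h.fin
  rw [← div_div]
  refine div_le_div_of_nonneg_right ?_ (by positivity)
  have hi := h.integrable (F := fun z => 1 * bump p (2 * r) z.1) (by fun_prop) p (2 * r)
    fun x hx _ => by simp [bump_zero (by positivity : 0 < 2 * r) hx]
  refine le_trans ?_ (setIntegral_le_integral (s := closedBall p r) hi
    (Eventually.of_forall fun x => by simpa using bump_nonneg _ _ _))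
  refine le_trans (le_of_eq ?_) (setIntegral_mono_on (integrable_const (1 / 4 : ℝ)).integrableOn
    hi.integrableOn measurableSet_closedBall fun x hx => ?_)
  · simp [div_eq_mul_inv]
  · have h1 := le_bump hr.le (by linarith : r ≤ 2 * r) (by positivity) (mem_closedBall_iff_norm.1 hx)
    rw [show ((2 * r - r) / (2 * r)) ^ 2 = 1 / 4 by field_simp; ring] at h1
    simpa using h1

/-- The mass ratio in a slab. -/
theorem Sys.slab (h : Sys m U μ T) {S : Submodule ℝ V} {e p : V} (he : e ∈ Sᗮ) (he1 : ‖e‖ ≤ 1)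
    {w σ : ℝ} (hw : 0 < w) (hσ : w ≤ σ) (hU : closedBall p σ ⊆ U) :
    Th m μ (fun _ => 1) p (w / 2) / 4 -
      4 * μ.real (ball p σ \ {x | T x = S}) * 2 ^ m / w ^ (m + 1) * σ ≤
        μ.real (ball p σ ∩ {x | |⟪e, x - p⟫| < w}) / σ ^ m := by
  have := h.fin
  set b := μ.real (ball p σ \ {x | T x = S}) with hb
  have hψ : ∀ x, HasFDerivAt (fun x => bump (0 : ℝ) w ⟪e, x - p⟫)
      ((bump' (0 : ℝ) w ⟪e, x - p⟫).comp (innerSL ℝ e)) x := fun x =>
    (hasFDerivAt_bump (0 : ℝ) w ⟪e, x - p⟫).comp x (f := fun x => ⟪e, x - p⟫)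
      ((innerSL ℝ e).hasFDerivAt.comp x ((hasFDerivAt_id x).sub_const p))
  have hc : Continuous fun x => (bump' (0 : ℝ) w ⟪e, x - p⟫).comp (innerSL ℝ e) := by fun_prop
  have hn := measurableSet_ball.nullMeasurableSet.diff (h.null S) (s := ball p σ)
  have h1 := mvt (c := -(4 * b * 2 ^ m / w ^ (m + 1))) (by linarith : w / 2 ≤ σ)
    (fun s hs => h.deriv_Th hψ hc (by linarith [hs.1])
      ((closedBall_subset_closedBall hs.2).trans hU)) fun s hs => by
      have hs0 : 0 < s := by linarith [hs.1]
      have h2 : ∫ x, (ball p σ \ {x | T x = S}).indicator (fun _ => -(4 / w * s)) x ∂μ ≤ _ :=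
        integral_mono ((integrable_const _).indicator₀ hn) (h.integrable (F := fun z =>
          4 * bump (0 : ℝ) w ⟪e, z.1 - p⟫ * max (1 - ‖z.1 - p‖ ^ 2 / s ^ 2) 0 *
            ‖z.1 - p - z.2 (z.1 - p)‖ ^ 2 / s ^ 2 + bump p s z.1 *
              ((bump' (0 : ℝ) w ⟪e, z.1 - p⟫).comp (innerSL ℝ e)) (z.2 (z.1 - p)))
          (by fun_prop) p s fun x hx A => by
            simp [max_eq_right (out_nonpos hs0 hx), bump_zero hs0 hx]) fun x => by
          have h3 := bump_nonneg (0 : ℝ) w ⟪e, x - p⟫
          refine le_add_of_nonneg_of_le (by positivity) ?_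
          by_cases hx : x ∈ ball p s
          · by_cases hT : T x = S
            · have h4 : ⟪e, (T x).starProjection (x - p)⟫ = 0 := by
                rw [hT]
                exact Submodule.inner_left_of_mem_orthogonal (S.starProjection_apply_mem _) he
              rw [indicator_of_notMem (fun h => h.2 hT), ContinuousLinearMap.comp_apply,
                innerSL_apply_apply, h4, map_zero, mul_zero]
            · rw [indicator_of_mem (show x ∈ ball p σ \ {x | T x = S} from
                ⟨ball_subset_ball hs.2 hx, hT⟩)]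
              refine neg_le_of_abs_le ?_
              rw [abs_mul, abs_of_nonneg (bump_nonneg _ _ _)]
              refine (mul_le_of_le_one_left (abs_nonneg _) (bump_le_one _ _ _)).trans ?_
              refine ((bump' (0 : ℝ) w ⟪e, x - p⟫).le_opNorm _).trans
                (mul_le_mul (norm_bump'_le _ hw _) ?_ (norm_nonneg _) (by positivity))
              refine (norm_inner_le_norm _ _).trans ((mul_le_of_le_one_left (norm_nonneg _)
                he1).trans (((T x).norm_starProjection_apply_le _).trans ?_))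
              exact (mem_ball_iff_norm.1 hx).le
          · rw [bump_zero hs0 hx, zero_mul]
            exact indicator_apply_nonpos fun _ => neg_nonpos.2 (by positivity)
      rw [integral_indicator₀ hn, setIntegral_const, ← hb, smul_eq_mul] at h2
      refine le_trans ?_ (div_le_div_of_nonneg_right h2 (by positivity))
      have hb0 : 0 ≤ b := measureReal_nonneg
      have h5 : w ^ m ≤ 2 ^ m * s ^ m := by
        rw [← mul_pow]
        exact pow_le_pow_left₀ hw.le (by linarith [hs.1]) m
      rw [mul_neg, neg_div, neg_le_neg_iff, div_le_div_iff₀ (by positivity) (by positivity)]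
      calc b * (4 / w * s) * w ^ (m + 1) = 4 * b * s * w ^ m := by field_simp; ring
        _ ≤ 4 * b * s * (2 ^ m * s ^ m) := by gcongr
        _ = _ := by ring
  have h2 := h.Th_le (ψ := fun x => bump (0 : ℝ) w ⟪e, x - p⟫) (A := {x | |⟪e, x - p⟫| < w})
    (isOpen_lt (by fun_prop) continuous_const).measurableSet (by fun_prop)
    (fun x => bump_le_one _ _ _) (fun x hx => bump_zero hw (by simpa using hx)) p (hw.trans_le hσ)
  have h3 : Th m μ (fun _ => 1) p (w / 2) / 4 ≤
      Th m μ (fun x => bump (0 : ℝ) w ⟪e, x - p⟫) p (w / 2) := by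
    rw [Th, Th, div_right_comm, ← integral_div]
    refine div_le_div_of_nonneg_right (integral_mono (h.integrable
      (F := fun z => 1 * bump p (w / 2) z.1 / 4) (by fun_prop) p (w / 2) fun x hx _ => by
        simp [bump_zero (half_pos hw) hx]) (h.integrable
      (F := fun z => bump (0 : ℝ) w ⟪e, z.1 - p⟫ * bump p (w / 2) z.1) (by fun_prop) p (w / 2)
        fun x hx _ => by simp [bump_zero (half_pos hw) hx]) fun x => ?_) (by positivity)
    by_cases hx : x ∈ ball p (w / 2)
    · have h4 := le_bump (p := (0 : ℝ)) (x := ⟪e, x - p⟫) (half_pos hw).le (half_le_self hw.le) hw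
        (by
          rw [sub_zero]
          exact (norm_inner_le_norm _ _).trans ((mul_le_of_le_one_left (norm_nonneg _) he1).trans
            (mem_ball_iff_norm.1 hx).le))
      rw [show ((w - w / 2) / w) ^ 2 = 1 / 4 by field_simp; ring] at h4
      nlinarith [bump_nonneg p (w / 2) x]
    · simp [bump_zero (half_pos hw) hx]
  have h4 : 0 ≤ 4 * b * 2 ^ m / w ^ (m + 1) := by positivity
  nlinarith

end Vale.Agent.P214
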